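import Mathlib

/-!
# S0423, package D: one-dimensional calculus for the shifted-exponential family

`t * exp (-t)` is the density of `Gamma(2)`.  `expSurv α θ t` is the survival function
`P(α + θ X > t)` of a shifted exponential (`X ~ Exp(1)`, `θ > 0`), and
`Qval α θ = ∫₀^∞ t e^{-t} · expSurv α θ t dt`.

Main results (all for `0 < θ`):
* `Qval_of_nonpos`, `Qval_of_nonneg`: closed forms;
* `Qval_ge`: `α + θ = 4/3 → 4/9 * exp (-1/3) ≤ Qval α θ`;
* `Qval_ge_of_mean_ge`: the same when `4/3 ≤ α + θ`;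
* `Qval_ge_of_mean_le`: `α + θ ≤ 4/3 → 4/9 * exp (-1/3) - exp (-1) * (4/3 - (α + θ)) ≤ Qval α θ`;
* `Qval_mono`, `Qval_shift_le`, `integral_expSurv_of_nonpos/nonneg` (mean of the family).
-/

namespace Crest.Agent.Helper6

open MeasureTheory Set Real Filter Topology

lemma hasDerivAt_antideriv (r : ℝ) (hr : 0 < r) (x : ℝ) :
    HasDerivAt (fun t : ℝ => -(t / r + 1 / r ^ 2) * Real.exp (-(r * t)))
      (x * Real.exp (-(r * x))) x := by
  have h1 : HasDerivAt (fun t : ℝ => -(t / r + 1 / r ^ 2)) (-(1 / r)) x := by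
    have h := (((hasDerivAt_id' x).div_const r).add_const (1 / r ^ 2)).fun_neg
    exact h
  have h3 : HasDerivAt (fun t : ℝ => -(r * t)) (-r) x := by
    have h := ((hasDerivAt_id' x).const_mul r).fun_neg
    simpa using h
  have h2 : HasDerivAt (fun t : ℝ => Real.exp (-(r * t))) (Real.exp (-(r * x)) * (-r)) x :=
    h3.exp
  refine (h1.fun_mul h2).congr_deriv ?_
  have hr' : r ≠ 0 := hr.ne'
  field_simp
  ring

lemma tendsto_antideriv (r : ℝ) (hr : 0 < r) :
    Tendsto (fun t : ℝ => -(t / r + 1 / r ^ 2) * Real.exp (-(r * t))) atTop (𝓝 0) := by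
  have h1 : Tendsto (fun t : ℝ => t * Real.exp (-(r * t))) atTop (𝓝 0) := by
    have := (Real.tendsto_pow_mul_exp_neg_atTop_nhds_zero 1).comp
      (tendsto_id.const_mul_atTop hr)
    have h2 : Tendsto (fun t : ℝ => (1 / r) * ((r * t) ^ 1 * Real.exp (-(r * t)))) atTop
        (𝓝 ((1 / r) * 0)) := (this.const_mul (1 / r))
    rw [mul_zero] at h2
    refine h2.congr (fun t => ?_)
    field_simp
  have h0 : Tendsto (fun t : ℝ => Real.exp (-(r * t))) atTop (𝓝 0) := by
    have : Tendsto (fun t : ℝ => -(r * t)) atTop atBot :=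
      tendsto_neg_atTop_atBot.comp (tendsto_id.const_mul_atTop hr)
    exact Real.tendsto_exp_atBot.comp this
  have h3 : Tendsto (fun t : ℝ => -(1 / r) * (t * Real.exp (-(r * t)))
      - (1 / r ^ 2) * Real.exp (-(r * t))) atTop (𝓝 (-(1 / r) * 0 - (1 / r ^ 2) * 0)) :=
    (h1.const_mul _).sub (h0.const_mul _)
  simp only [mul_zero, sub_zero] at h3
  refine h3.congr (fun t => ?_)
  ring

lemma integrableOn_mul_exp (r c : ℝ) (hr : 0 < r) (hc : 0 ≤ c) :
    IntegrableOn (fun t : ℝ => t * Real.exp (-(r * t))) (Ioi c) := by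
  refine integrableOn_Ioi_deriv_of_nonneg' (fun x _ => hasDerivAt_antideriv r hr x)
    (fun x hx => ?_) (tendsto_antideriv r hr)
  exact mul_nonneg (hc.trans (le_of_lt hx)) (Real.exp_pos _).le

lemma integral_Ioi_mul_exp (r c : ℝ) (hr : 0 < r) (hc : 0 ≤ c) :
    ∫ t in Ioi c, t * Real.exp (-(r * t)) = (c / r + 1 / r ^ 2) * Real.exp (-(r * c)) := by
  rw [integral_Ioi_of_hasDerivAt_of_tendsto' (fun x _ => hasDerivAt_antideriv r hr x)
    (integrableOn_mul_exp r c hr hc) (tendsto_antideriv r hr)]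
  ring

/-- Survival function of the shifted exponential `α + θ X`. -/
noncomputable def expSurv (α θ t : ℝ) : ℝ := if t ≤ α then 1 else Real.exp (-(t - α) / θ)

/-- `∫₀^∞ t e^{-t} P(α + θ X > t) dt`. -/
noncomputable def Qval (α θ : ℝ) : ℝ := ∫ t in Ioi (0:ℝ), t * Real.exp (-t) * expSurv α θ t

lemma expSurv_of_le {α θ t : ℝ} (h : t ≤ α) : expSurv α θ t = 1 := if_pos h
lemma expSurv_of_lt {α θ t : ℝ} (h : α < t) : expSurv α θ t = Real.exp (-(t - α) / θ) :=
  if_neg (not_le.mpr h)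

lemma expSurv_nonneg (α θ t : ℝ) : 0 ≤ expSurv α θ t := by
  unfold expSurv; split_ifs
  · exact zero_le_one
  · exact (Real.exp_pos _).le

lemma expSurv_le_one {α θ : ℝ} (hθ : 0 < θ) (t : ℝ) : expSurv α θ t ≤ 1 := by
  unfold expSurv; split_ifs with h
  · exact le_rfl
  · rw [Real.exp_le_one_iff]
    have : 0 < t - α := by linarith [not_le.mp h]
    have : 0 ≤ (t - α) / θ := by positivity
    have e : -(t - α) / θ = -((t - α) / θ) := by ring
    rw [e]; linarith

lemma expSurv_eq_min {α θ : ℝ} (hθ : 0 < θ) (t : ℝ) :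
    expSurv α θ t = min 1 (Real.exp (-(t - α) / θ)) := by
  unfold expSurv; split_ifs with h
  · symm; apply min_eq_left
    rw [Real.one_le_exp_iff]
    have : 0 ≤ (α - t) / θ := div_nonneg (by linarith) hθ.le
    have e : -(t - α) / θ = (α - t) / θ := by ring
    rw [e]; exact this
  · symm; apply min_eq_right
    rw [Real.exp_le_one_iff]
    have : 0 ≤ (t - α) / θ := div_nonneg (by linarith [not_le.mp h]) hθ.le
    have e : -(t - α) / θ = -((t - α) / θ) := by ring
    rw [e]; linarith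

lemma measurable_expSurv (α θ : ℝ) : Measurable (expSurv α θ) := by
  unfold expSurv
  refine Measurable.ite measurableSet_Iic measurable_const ?_
  fun_prop

lemma weight_mul_expSurv_of_lt {α θ t : ℝ} (hθ : 0 < θ) (h : α < t) :
    t * Real.exp (-t) * expSurv α θ t
      = Real.exp (α / θ) * (t * Real.exp (-((1 + 1 / θ) * t))) := by
  rw [expSurv_of_lt h]
  have : Real.exp (-t) * Real.exp (-(t - α) / θ)
      = Real.exp (α / θ) * Real.exp (-((1 + 1 / θ) * t)) := by
    rw [← Real.exp_add, ← Real.exp_add]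
    congr 1
    field_simp
    ring
  calc t * Real.exp (-t) * Real.exp (-(t - α) / θ)
      = t * (Real.exp (-t) * Real.exp (-(t - α) / θ)) := by ring
    _ = _ := by rw [this]; ring

lemma integrableOn_weight : IntegrableOn (fun t : ℝ => t * Real.exp (-t)) (Ioi 0) := by
  have := integrableOn_mul_exp 1 0 one_pos le_rfl
  simpa using this

lemma integral_Ioi_weight (c : ℝ) (hc : 0 ≤ c) :
    ∫ t in Ioi c, t * Real.exp (-t) = (c + 1) * Real.exp (-c) := by
  have := integral_Ioi_mul_exp 1 c one_pos hc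
  simpa using this

lemma integrableOn_weight_mul_expSurv {α θ : ℝ} (hθ : 0 < θ) :
    IntegrableOn (fun t : ℝ => t * Real.exp (-t) * expSurv α θ t) (Ioi 0) := by
  refine Integrable.mono' integrableOn_weight ?_ ?_
  · exact ((measurable_id.mul (Real.measurable_exp.comp measurable_neg)).mul
      (measurable_expSurv α θ)).aestronglyMeasurable
  · refine (ae_restrict_iff' measurableSet_Ioi).mpr (Filter.Eventually.of_forall fun t ht => ?_)
    have ht' : (0:ℝ) < t := ht
    rw [Real.norm_eq_abs, abs_of_nonneg (mul_nonneg (mul_nonneg ht'.le (Real.exp_pos _).le)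
      (expSurv_nonneg _ _ _))]
    calc t * Real.exp (-t) * expSurv α θ t ≤ t * Real.exp (-t) * 1 :=
          mul_le_mul_of_nonneg_left (expSurv_le_one hθ t)
            (mul_nonneg ht'.le (Real.exp_pos _).le)
      _ = t * Real.exp (-t) := mul_one _

theorem Qval_of_nonpos {α θ : ℝ} (hθ : 0 < θ) (hα : α ≤ 0) :
    Qval α θ = Real.exp (α / θ) * (θ ^ 2 / (1 + θ) ^ 2) := by
  unfold Qval
  have hr : 0 < 1 + 1 / θ := by positivity
  rw [setIntegral_congr_fun measurableSet_Ioi (fun t ht =>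
    weight_mul_expSurv_of_lt hθ (lt_of_le_of_lt hα ht))]
  rw [integral_const_mul, integral_Ioi_mul_exp _ 0 hr le_rfl]
  simp only [zero_div, zero_add, mul_zero, neg_zero, Real.exp_zero, mul_one]
  congr 1
  field_simp
  ring

theorem Qval_of_nonneg {α θ : ℝ} (hθ : 0 < θ) (hα : 0 ≤ α) :
    Qval α θ = 1 - Real.exp (-α) * ((1 + 2 * θ) / (1 + θ) ^ 2 + α / (1 + θ)) := by
  unfold Qval
  have hr : 0 < 1 + 1 / θ := by positivity
  rw [← Ioc_union_Ioi_eq_Ioi hα]
  rw [setIntegral_union (Ioc_disjoint_Ioi le_rfl) measurableSet_Ioi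
    ((integrableOn_weight_mul_expSurv hθ).mono_set (fun t ht => ht.1))
    ((integrableOn_weight_mul_expSurv hθ).mono_set (fun t ht => lt_of_le_of_lt hα ht))]
  -- second piece
  have h2 : ∫ t in Ioi α, t * Real.exp (-t) * expSurv α θ t
      = Real.exp (-α) * (α * θ / (1 + θ) + θ ^ 2 / (1 + θ) ^ 2) := by
    rw [setIntegral_congr_fun measurableSet_Ioi (fun t ht =>
      weight_mul_expSurv_of_lt hθ ht)]
    rw [integral_const_mul, integral_Ioi_mul_exp _ α hr hα]
    have e : Real.exp (α / θ) * ((α / (1 + 1 / θ) + 1 / (1 + 1 / θ) ^ 2)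
        * Real.exp (-((1 + 1 / θ) * α)))
        = (Real.exp (α / θ) * Real.exp (-((1 + 1 / θ) * α)))
          * (α / (1 + 1 / θ) + 1 / (1 + 1 / θ) ^ 2) := by ring
    rw [e, ← Real.exp_add]
    have e2 : α / θ + -((1 + 1 / θ) * α) = -α := by field_simp; ring
    rw [e2]
    congr 1
    field_simp
    ring
  -- first piece
  have h1 : ∫ t in Ioc 0 α, t * Real.exp (-t) * expSurv α θ t
      = 1 - (α + 1) * Real.exp (-α) := by
    rw [setIntegral_congr_fun measurableSet_Ioc (fun t ht => by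
      show t * Real.exp (-t) * expSurv α θ t = t * Real.exp (-t)
      rw [expSurv_of_le ht.2, mul_one])]
    have hI0 := integral_Ioi_weight 0 le_rfl
    have hIa := integral_Ioi_weight α hα
    have hsplit : ∫ t in Ioi 0, t * Real.exp (-t)
        = (∫ t in Ioc 0 α, t * Real.exp (-t)) + ∫ t in Ioi α, t * Real.exp (-t) := by
      rw [← Ioc_union_Ioi_eq_Ioi hα]
      rw [setIntegral_union (Ioc_disjoint_Ioi le_rfl) measurableSet_Ioi
        (integrableOn_weight.mono_set (fun t ht => ht.1))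
        (integrableOn_weight.mono_set (fun t ht => lt_of_le_of_lt hα ht))]
    rw [hI0, hIa] at hsplit
    simp at hsplit
    linarith
  rw [h1, h2]
  field_simp
  ring

lemma poly_aux (s : ℝ) (hs : 0 ≤ s) (h43 : s ≤ 4/3) :
    0 ≤ 28/3 + (107/6)*s - (253/18)*s^2 - (55/6)*s^3 + (11/2)*s^4 := by
  nlinarith [mul_nonneg hs (sub_nonneg.mpr h43), sq_nonneg (s - 1), sq_nonneg (s^2 - s),
    sq_nonneg (s^2 - 1), mul_nonneg (mul_nonneg hs (sub_nonneg.mpr h43)) (sq_nonneg (s - 1)),
    mul_nonneg (mul_nonneg hs (sub_nonneg.mpr h43)) (sq_nonneg s), sq_nonneg (s - 4/3)]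

lemma exp_ge_cubic (s : ℝ) (hs : 0 ≤ s) : 1 + s + s^2/2 + s^3/6 ≤ Real.exp s := by
  have := Real.sum_le_exp_of_nonneg hs 4
  simp [Finset.sum_range_succ, Nat.factorial] at this
  linarith

/-- `(4/9) e^{-1/3} ≤ 16/49`. -/
lemma const_le : 4 / 9 * Real.exp (-1 / 3) ≤ 16 / 49 := by
  have h := exp_ge_cubic (1/3) (by norm_num)
  have hpos := Real.exp_pos (1/3 : ℝ)
  have e : Real.exp (-1/3 : ℝ) = (Real.exp (1/3))⁻¹ := by
    rw [← Real.exp_neg]; congr 1; ring
  rw [e]
  have h2 : (Real.exp (1/3))⁻¹ ≤ (49/36 : ℝ)⁻¹ := by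
    apply inv_anti₀ (by norm_num)
    norm_num at h ⊢
    linarith
  norm_num at h2 ⊢
  linarith

theorem Qval_ge_of_nonpos {α θ : ℝ} (hθ : 0 < θ) (hm : α + θ = 4 / 3) (hα : α ≤ 0) :
    4 / 9 * Real.exp (-1 / 3) ≤ Qval α θ := by
  rw [Qval_of_nonpos hθ hα]
  set y : ℝ := (2 / 3) * (1 + θ) / θ with hy
  have hy0 : 0 < y := by positivity
  have h1 : y ≤ Real.exp (y - 1) := by linarith [Real.add_one_le_exp (y - 1)]
  have h2 : y ^ 2 ≤ Real.exp (y - 1) ^ 2 := pow_le_pow_left₀ hy0.le h1 2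
  have h3 : Real.exp (y - 1) ^ 2 = Real.exp (α / θ) * Real.exp (1 / 3) := by
    rw [← Real.exp_add, sq, ← Real.exp_add]
    congr 1
    have hα' : α = 4 / 3 - θ := by linarith
    rw [hy, hα']
    field_simp
    ring
  have h4 : Real.exp (-1 / 3 : ℝ) * Real.exp (1 / 3) = 1 := by
    rw [← Real.exp_add]; norm_num
  have h5 : y ^ 2 * Real.exp (-1 / 3) ≤ Real.exp (α / θ) := by
    have := mul_le_mul_of_nonneg_right (h2.trans_eq h3) (Real.exp_pos (-1 / 3)).le
    calc y ^ 2 * Real.exp (-1 / 3) ≤ Real.exp (α / θ) * Real.exp (1 / 3) * Real.exp (-1 / 3) := this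
      _ = Real.exp (α / θ) * (Real.exp (-1 / 3) * Real.exp (1 / 3)) := by ring
      _ = Real.exp (α / θ) := by rw [h4, mul_one]
  have h6 : 4 / 9 * Real.exp (-1 / 3) = y ^ 2 * Real.exp (-1 / 3) * (θ ^ 2 / (1 + θ) ^ 2) := by
    rw [hy]; field_simp; ring
  rw [h6]
  exact mul_le_mul_of_nonneg_right h5 (by positivity)

theorem Qval_ge_of_nonneg {α θ : ℝ} (hθ : 0 < θ) (hm : α + θ = 4 / 3) (hα : 0 ≤ α) :
    16 / 49 ≤ Qval α θ := by
  rw [Qval_of_nonneg hθ hα]
  have hα43 : α ≤ 4 / 3 := by linarith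
  have hθ' : θ = 4 / 3 - α := by linarith
  have hexp := exp_ge_cubic α hα
  have hpoly := poly_aux α hα hα43
  have key : Real.exp (-α) * ((1 + 2 * θ) / (1 + θ) ^ 2 + α / (1 + θ)) ≤ 33 / 49 := by
    have e1 : (1 + 2 * θ) / (1 + θ) ^ 2 + α / (1 + θ)
        = (11 / 3 + α / 3 - α ^ 2) / (7 / 3 - α) ^ 2 := by
      rw [hθ']; field_simp; ring
    have h73 : 0 < 7 / 3 - α := by linarith
    rw [e1, Real.exp_neg, ← div_eq_inv_mul, div_div,
      div_le_iff₀ (mul_pos (pow_pos h73 2) (Real.exp_pos α))]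
    have hnum : 49 * (11 / 3 + α / 3 - α ^ 2)
        ≤ 33 * ((7 / 3 - α) ^ 2 * (1 + α + α ^ 2 / 2 + α ^ 3 / 6)) := by
      nlinarith [mul_nonneg hα hpoly]
    have hsq : 0 ≤ (7 / 3 - α) ^ 2 := sq_nonneg _
    nlinarith [mul_le_mul_of_nonneg_left hexp hsq]
  linarith

lemma expSurv_mono {α α' θ : ℝ} (hθ : 0 < θ) (h : α ≤ α') (t : ℝ) :
    expSurv α θ t ≤ expSurv α' θ t := by
  rcases le_or_gt t α with h1 | h1
  · rw [expSurv_of_le h1, expSurv_of_le (h1.trans h)]
  · rcases le_or_gt t α' with h2 | h2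
    · rw [expSurv_of_le h2]; exact expSurv_le_one hθ t
    · rw [expSurv_of_lt h1, expSurv_of_lt h2]
      apply Real.exp_le_exp.mpr
      apply div_le_div_of_nonneg_right _ hθ.le
      linarith

theorem Qval_mono {α α' θ : ℝ} (hθ : 0 < θ) (h : α ≤ α') : Qval α θ ≤ Qval α' θ := by
  unfold Qval
  refine setIntegral_mono_on (integrableOn_weight_mul_expSurv hθ)
    (integrableOn_weight_mul_expSurv hθ) measurableSet_Ioi (fun t ht => ?_)
  have ht' : (0:ℝ) < t := ht
  exact mul_le_mul_of_nonneg_left (expSurv_mono hθ h t) (mul_nonneg ht'.le (Real.exp_pos _).le)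

lemma weight_le (t : ℝ) : t * Real.exp (-t) ≤ Real.exp (-1) := by
  have h := Real.add_one_le_exp (t - 1)
  have h2 : t ≤ Real.exp (t - 1) := by linarith
  have h3 : Real.exp (t - 1) * Real.exp (-t) = Real.exp (-1) := by
    rw [← Real.exp_add]; congr 1; ring
  calc t * Real.exp (-t) ≤ Real.exp (t - 1) * Real.exp (-t) :=
        mul_le_mul_of_nonneg_right h2 (Real.exp_pos _).le
    _ = Real.exp (-1) := h3

lemma expSurv_tail_eq {α θ t : ℝ} (hθ : 0 < θ) (h : α < t) :
    expSurv α θ t = Real.exp (α / θ) * Real.exp (-(1 / θ) * t) := by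
  rw [expSurv_of_lt h, ← Real.exp_add]; congr 1; field_simp; ring

lemma integrableOn_expSurv_Ioi {α θ : ℝ} (hθ : 0 < θ) {c : ℝ} (hc : α ≤ c) :
    IntegrableOn (expSurv α θ) (Ioi c) := by
  have h1 : IntegrableOn (fun t : ℝ => Real.exp (α / θ) * Real.exp (-(1 / θ) * t)) (Ioi c) :=
    (integrableOn_exp_mul_Ioi (by simp; positivity) c).const_mul _
  exact h1.congr_fun (fun t ht => (expSurv_tail_eq hθ (lt_of_le_of_lt hc ht)).symm) measurableSet_Ioi

lemma integral_expSurv_Ioi {α θ : ℝ} (hθ : 0 < θ) {c : ℝ} (hc : α ≤ c) :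
    ∫ t in Ioi c, expSurv α θ t = θ * Real.exp (-(c - α) / θ) := by
  rw [setIntegral_congr_fun measurableSet_Ioi
    (fun t ht => expSurv_tail_eq hθ (lt_of_le_of_lt hc ht))]
  rw [integral_const_mul, integral_exp_mul_Ioi (by simp; positivity) c]
  have e : Real.exp (α / θ) * (-Real.exp (-(1 / θ) * c) / -(1 / θ))
      = θ * (Real.exp (α / θ) * Real.exp (-(1 / θ) * c)) := by field_simp
  rw [e, ← Real.exp_add]; congr 2; field_simp; ring

lemma integrableOn_expSurv {α θ : ℝ} (hθ : 0 < θ) : IntegrableOn (expSurv α θ) (Ioi 0) := by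
  rcases le_total α 0 with h | h
  · exact integrableOn_expSurv_Ioi hθ h
  · rw [← Ioc_union_Ioi_eq_Ioi h]
    refine IntegrableOn.union ?_ (integrableOn_expSurv_Ioi hθ le_rfl)
    have : IntegrableOn (fun _ : ℝ => (1:ℝ)) (Ioc 0 α) := by
      simp [integrableOn_const_iff]
    exact this.congr_fun (fun t ht => (expSurv_of_le ht.2).symm) measurableSet_Ioc

/-- `∫₀^∞ P(α + θ X > t) dt`. -/
lemma integral_expSurv_of_nonpos {α θ : ℝ} (hθ : 0 < θ) (h : α ≤ 0) :
    ∫ t in Ioi (0:ℝ), expSurv α θ t = θ * Real.exp (α / θ) := by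
  rw [integral_expSurv_Ioi hθ h]; congr 2; ring

lemma integral_expSurv_of_nonneg {α θ : ℝ} (hθ : 0 < θ) (h : 0 ≤ α) :
    ∫ t in Ioi (0:ℝ), expSurv α θ t = α + θ := by
  rw [← Ioc_union_Ioi_eq_Ioi h]
  rw [setIntegral_union (Ioc_disjoint_Ioi le_rfl) measurableSet_Ioi
    ((integrableOn_expSurv hθ).mono_set (fun t ht => ht.1))
    (integrableOn_expSurv_Ioi hθ le_rfl)]
  rw [integral_expSurv_Ioi hθ le_rfl]
  rw [setIntegral_congr_fun measurableSet_Ioc (fun t ht => expSurv_of_le (θ := θ) ht.2)]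
  simp [h]

lemma integral_expSurv_shift_le {α θ δ : ℝ} (hθ : 0 < θ) (hδ : 0 ≤ δ) :
    (∫ t in Ioi (0:ℝ), expSurv (α + δ) θ t) - ∫ t in Ioi (0:ℝ), expSurv α θ t ≤ δ := by
  have key : ∀ x : ℝ, 1 - Real.exp (-x) ≤ x := fun x => by
    linarith [Real.add_one_le_exp (-x)]
  rcases le_total 0 α with h | h
  · rw [integral_expSurv_of_nonneg hθ h, integral_expSurv_of_nonneg hθ (by linarith)]
    linarith
  · rcases le_total (α + δ) 0 with h2 | h2
    · rw [integral_expSurv_of_nonpos hθ h, integral_expSurv_of_nonpos hθ h2]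
      have e : Real.exp (α / θ) = Real.exp ((α + δ) / θ) * Real.exp (-(δ / θ)) := by
        rw [← Real.exp_add]; congr 1; field_simp; ring
      rw [e]
      have h3 : Real.exp ((α + δ) / θ) ≤ 1 := by
        rw [Real.exp_le_one_iff]; exact div_nonpos_of_nonpos_of_nonneg h2 hθ.le
      have h4 := key (δ / θ)
      have h5 : 0 ≤ 1 - Real.exp (-(δ / θ)) := by
        have : Real.exp (-(δ / θ)) ≤ 1 := by
          rw [Real.exp_le_one_iff]; have := div_nonneg hδ hθ.le; linarith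
        linarith
      have h6 : θ * (δ / θ) = δ := by field_simp
      calc θ * Real.exp ((α + δ) / θ) - θ * (Real.exp ((α + δ) / θ) * Real.exp (-(δ / θ)))
          = θ * (Real.exp ((α + δ) / θ) * (1 - Real.exp (-(δ / θ)))) := by ring
        _ ≤ θ * (1 * (δ / θ)) := by
            apply mul_le_mul_of_nonneg_left _ hθ.le
            exact mul_le_mul h3 h4 h5 zero_le_one
        _ = δ := by rw [one_mul, h6]
    · rw [integral_expSurv_of_nonpos hθ h, integral_expSurv_of_nonneg hθ h2]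
      have h4 := key (-α / θ)
      have h6 : θ * (-α / θ) = -α := by field_simp
      have e : Real.exp (α / θ) = Real.exp (-(-α / θ)) := by congr 1; ring
      rw [e]
      nlinarith [mul_le_mul_of_nonneg_left h4 hθ.le]

theorem Qval_shift_le {α θ δ : ℝ} (hθ : 0 < θ) (hδ : 0 ≤ δ) :
    Qval (α + δ) θ - Qval α θ ≤ Real.exp (-1) * δ := by
  unfold Qval
  rw [← integral_sub (integrableOn_weight_mul_expSurv hθ) (integrableOn_weight_mul_expSurv hθ)]
  have hint : IntegrableOn (fun t => Real.exp (-1) * (expSurv (α + δ) θ t - expSurv α θ t))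
      (Ioi 0) := ((integrableOn_expSurv hθ).sub (integrableOn_expSurv hθ)).const_mul _
  calc ∫ t in Ioi (0:ℝ), (t * Real.exp (-t) * expSurv (α + δ) θ t
          - t * Real.exp (-t) * expSurv α θ t)
      ≤ ∫ t in Ioi (0:ℝ), Real.exp (-1) * (expSurv (α + δ) θ t - expSurv α θ t) := by
        refine setIntegral_mono_on ((integrableOn_weight_mul_expSurv hθ).sub
          (integrableOn_weight_mul_expSurv hθ)) hint measurableSet_Ioi (fun t ht => ?_)
        have hd : 0 ≤ expSurv (α + δ) θ t - expSurv α θ t :=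
          sub_nonneg.mpr (expSurv_mono hθ (by linarith) t)
        calc t * Real.exp (-t) * expSurv (α + δ) θ t - t * Real.exp (-t) * expSurv α θ t
            = t * Real.exp (-t) * (expSurv (α + δ) θ t - expSurv α θ t) := by ring
          _ ≤ Real.exp (-1) * (expSurv (α + δ) θ t - expSurv α θ t) :=
            mul_le_mul_of_nonneg_right (weight_le t) hd
    _ = Real.exp (-1) * ((∫ t in Ioi (0:ℝ), expSurv (α + δ) θ t)
          - ∫ t in Ioi (0:ℝ), expSurv α θ t) := by
        rw [integral_const_mul, integral_sub (integrableOn_expSurv hθ) (integrableOn_expSurv hθ)]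
    _ ≤ Real.exp (-1) * δ :=
        mul_le_mul_of_nonneg_left (integral_expSurv_shift_le hθ hδ) (Real.exp_pos _).le

/-- Main bound on the mean-`4/3` line. -/
theorem Qval_ge {α θ : ℝ} (hθ : 0 < θ) (hm : α + θ = 4 / 3) :
    4 / 9 * Real.exp (-1 / 3) ≤ Qval α θ := by
  rcases le_total α 0 with h | h
  · exact Qval_ge_of_nonpos hθ hm h
  · exact const_le.trans (Qval_ge_of_nonneg hθ hm h)

/-- The bound persists when the mean is at least `4/3`. -/
theorem Qval_ge_of_mean_ge {α θ : ℝ} (hθ : 0 < θ) (hm : 4 / 3 ≤ α + θ) :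
    4 / 9 * Real.exp (-1 / 3) ≤ Qval α θ :=
  (Qval_ge (α := 4 / 3 - θ) hθ (by ring)).trans (Qval_mono hθ (by linarith))

/-- Deficit version when the mean is at most `4/3`. -/
theorem Qval_ge_of_mean_le {α θ : ℝ} (hθ : 0 < θ) (hm : α + θ ≤ 4 / 3) :
    4 / 9 * Real.exp (-1 / 3) - Real.exp (-1) * (4 / 3 - (α + θ)) ≤ Qval α θ := by
  have h1 := Qval_shift_le (α := α) (θ := θ) (δ := 4 / 3 - (α + θ)) hθ (by linarith)
  have h2 := Qval_ge (α := α + (4 / 3 - (α + θ))) hθ (by ring)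
  linarith

lemma Qval_nonneg {α θ : ℝ} : 0 ≤ Qval α θ := by
  unfold Qval
  refine setIntegral_nonneg measurableSet_Ioi (fun t ht => ?_)
  have ht' : (0:ℝ) < t := ht
  exact mul_nonneg (mul_nonneg ht'.le (Real.exp_pos _).le) (expSurv_nonneg _ _ _)

end Crest.Agent.Helper6
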