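import Mathlib
import Crest.Agent.Helper7.S0423Defs
import Crest.Agent.Helper6.S0423Calc

/-!
# S0423, package D (bridge): needle calculus in helper7's interface

`Jw (needle a b) = Qval (4/3 - b) a`, hence
`tau - exp (-1) * max 0 (b - a) ≤ Jw (needle a b)` for `0 < a`.
-/

set_option autoImplicit false

namespace Crest.Agent.Helper6

open MeasureTheory Set Crest.Agent.Helper7

lemma needle_shift (a b : ℝ) (ha : 0 < a) (t : ℝ) :
    needle a b (t - 4 / 3) = expSurv (4 / 3 - b) a t := by
  rw [expSurv_eq_min ha]
  unfold needle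
  congr 2
  ring

lemma gw_of_pos {y : ℝ} (hy : 0 < y) : gw y = y * Real.exp (-y) := by
  unfold gw; rw [if_neg (not_le.mpr hy)]

lemma gw_of_nonpos {y : ℝ} (hy : y ≤ 0) : gw y = 0 := by
  unfold gw; rw [if_pos hy]

/-- `Jw` of a needle is the `Qval` of the corresponding shifted exponential. -/
theorem Jw_needle (a b : ℝ) (ha : 0 < a) : Jw (needle a b) = Qval (4 / 3 - b) a := by
  unfold Jw Qval
  have h1 : ∫ t, gw (t + 4 / 3) * needle a b t
      = ∫ t, gw t * needle a b (t - 4 / 3) := by
    have := integral_add_right_eq_self (μ := (volume : Measure ℝ))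
      (fun t => gw t * needle a b (t - 4 / 3)) (4 / 3)
    simp only [add_sub_cancel_right] at this
    exact this
  rw [h1]
  rw [← integral_indicator measurableSet_Ioi]
  congr 1
  funext t
  by_cases ht : t ∈ Ioi (0:ℝ)
  · rw [indicator_of_mem ht, gw_of_pos ht, needle_shift a b ha]
  · rw [indicator_of_notMem ht, gw_of_nonpos (not_lt.mp ht), zero_mul]

theorem tau_eq : tau = 4 / 9 * Real.exp (-1 / 3) := by
  unfold tau; congr 2; ring

/-- Package D, main statement (helper7's interface). -/
theorem needle_Jw_ge (a b : ℝ) (ha : 0 < a) :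
    tau - Real.exp (-1) * max 0 (b - a) ≤ Jw (needle a b) := by
  rw [Jw_needle a b ha, tau_eq]
  rcases le_total b a with h | h
  · rw [max_eq_left (by linarith), mul_zero, sub_zero]
    exact Qval_ge_of_mean_ge ha (by linarith)
  · rw [max_eq_right (by linarith)]
    have := Qval_ge_of_mean_le (α := 4 / 3 - b) (θ := a) ha (by linarith)
    have e : 4 / 3 - (4 / 3 - b + a) = b - a := by ring
    rw [e] at this
    exact this

end Crest.Agent.Helper6
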