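import Mathlib

/-!
S0167 (row 125), generic normed-space part (helper6).

* `cof_iInf_ker`: a finite intersection of kernels of continuous functionals is a closed subspace of
  finite codimension.
* `oneSidedGE`: the one-sided lower bound `max 0 (t - 2)` on the kernel of a norming functional.
* `oneSidedLE_of_D1`, `midpointLE_of_D1`: the upper bounds, from the "D1" property
  (unit `y` in any closed finite-codimensional subspace with `‖x + 2 y‖ ≤ 1 + ε`).
-/

set_option autoImplicit false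

namespace Crest.Agent.Helper6.S0167

section Generic

variable {V : Type*} [NormedAddCommGroup V] [NormedSpace ℝ V]

/-- A finite intersection of kernels of continuous linear functionals is closed of finite
codimension. -/
theorem cof_iInf_ker {ι : Type*} [Finite ι] (φ : ι → V →L[ℝ] ℝ) :
    IsClosed ((⨅ i, LinearMap.ker (φ i).toLinearMap : Submodule ℝ V) : Set V) ∧
      FiniteDimensional ℝ (V ⧸ (⨅ i, LinearMap.ker (φ i).toLinearMap : Submodule ℝ V)) := by
  constructor
  · rw [Submodule.coe_iInf]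
    exact isClosed_iInter fun i => (φ i).isClosed_ker
  · have h := LinearMap.ker_pi (fun i => (φ i).toLinearMap)
    rw [← h]
    exact LinearEquiv.finiteDimensional
      (LinearMap.quotKerEquivRange (LinearMap.pi fun i => (φ i).toLinearMap)).symm

/-- The "D1" property: every unit vector `x`, closed finite-codimensional subspace `S` and `ε > 0`
admit a unit vector `y ∈ S` with `‖x + 2 y‖ ≤ 1 + ε`. -/
def D1Prop (V : Type*) [NormedAddCommGroup V] [NormedSpace ℝ V] : Prop :=
  ∀ x : V, ‖x‖ = 1 → ∀ S : Submodule ℝ V, IsClosed (S : Set V) → FiniteDimensional ℝ (V ⧸ S) →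
    ∀ ε : ℝ, 0 < ε → ∃ y ∈ S, ‖y‖ = 1 ∧ ‖x + (2 : ℝ) • y‖ ≤ 1 + ε

theorem norm_add_smul_le {x y : V} (hx : ‖x‖ = 1) (hy : ‖y‖ = 1) {ε : ℝ} (hε : 0 ≤ ε)
    (h : ‖x + (2 : ℝ) • y‖ ≤ 1 + ε) (t : ℝ) (ht : 0 < t) :
    ‖x + t • y‖ ≤ 1 + max 0 (t - 2) + ε := by
  rcases le_or_gt t 2 with h2 | h2
  · have e : x + t • y = (1 - t / 2) • x + (t / 2) • (x + (2 : ℝ) • y) := by
      rw [smul_add, smul_smul, sub_smul, one_smul]
      have : t / 2 * 2 = t := by ring
      rw [this]; abel
    have h1 : ‖(1 - t / 2) • x‖ = 1 - t / 2 := by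
      rw [norm_smul, hx, mul_one, Real.norm_of_nonneg (by linarith)]
    have h3 : ‖(t / 2) • (x + (2 : ℝ) • y)‖ ≤ t / 2 * (1 + ε) := by
      rw [norm_smul, Real.norm_of_nonneg (by linarith)]
      exact mul_le_mul_of_nonneg_left h (by linarith)
    have hm : max 0 (t - 2) = 0 := max_eq_left (by linarith)
    rw [e, hm]
    have := norm_add_le ((1 - t / 2) • x) ((t / 2) • (x + (2 : ℝ) • y))
    nlinarith
  · have e : x + t • y = (x + (2 : ℝ) • y) + (t - 2) • y := by
      rw [sub_smul]; abel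
    have h1 : ‖(t - 2) • y‖ = t - 2 := by
      rw [norm_smul, hy, mul_one, Real.norm_of_nonneg (by linarith)]
    have hm : max 0 (t - 2) = t - 2 := max_eq_right (by linarith)
    rw [e, hm]
    have := norm_add_le (x + (2 : ℝ) • y) ((t - 2) • y)
    linarith

/-- One-sided upper bound from D1. -/
theorem oneSidedLE_of_D1 (hD : D1Prop V) (t : ℝ) (ht : 0 < t) (x : V) (hx : ‖x‖ = 1)
    (S : Submodule ℝ V) (hS : IsClosed (S : Set V)) (hfd : FiniteDimensional ℝ (V ⧸ S))
    (η : ℝ) (hη : 0 < η) :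
    ∃ y ∈ S, ‖y‖ = 1 ∧ ‖x + t • y‖ - 1 ≤ max 0 (t - 2) + η := by
  obtain ⟨y, hyS, hy1, hy⟩ := hD x hx S hS hfd η hη
  refine ⟨y, hyS, hy1, ?_⟩
  have := norm_add_smul_le hx hy1 hη.le hy t ht
  linarith

/-- Midpoint upper bound from D1. -/
theorem midpointLE_of_D1 (hD : D1Prop V) (t : ℝ) (ht : 0 < t) (x : V) (hx : ‖x‖ = 1)
    (S : Submodule ℝ V) (hS : IsClosed (S : Set V)) (hfd : FiniteDimensional ℝ (V ⧸ S))
    (η : ℝ) (hη : 0 < η) :
    ∃ y ∈ S, ‖y‖ = 1 ∧ (‖x + t • y‖ + ‖x - t • y‖) / 2 - 1 ≤ max (t / 2) (t - 1) + η := by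
  obtain ⟨y, hyS, hy1, hy⟩ := hD x hx S hS hfd η hη
  refine ⟨y, hyS, hy1, ?_⟩
  have h1 := norm_add_smul_le hx hy1 hη.le hy t ht
  have h2 : ‖x - t • y‖ ≤ 1 + t := by
    have := norm_sub_le x (t • y)
    rw [norm_smul, hy1, hx, mul_one, Real.norm_of_nonneg ht.le] at this
    exact this
  have h3 : (t + max 0 (t - 2)) / 2 ≤ max (t / 2) (t - 1) := by
    rcases le_or_gt t 2 with h | h
    · rw [max_eq_left (by linarith)]
      exact le_trans (by linarith) (le_max_left _ _)
    · rw [max_eq_right (by linarith)]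
      exact le_trans (by linarith) (le_max_right _ _)
  linarith

/-- One-sided lower bound: on the kernel of a norming functional of `x`. -/
theorem oneSidedGE (x : V) (hx : ‖x‖ = 1) (t : ℝ) (ht : 0 < t) :
    ∃ S : Submodule ℝ V, IsClosed (S : Set V) ∧ FiniteDimensional ℝ (V ⧸ S) ∧
      ∀ y ∈ S, ‖y‖ = 1 → max 0 (t - 2) ≤ ‖x + t • y‖ - 1 := by
  obtain ⟨φ, hφ1, hφx⟩ := exists_dual_vector ℝ x (by rw [hx]; exact one_ne_zero)
  obtain ⟨hcl, hfd⟩ := cof_iInf_ker (fun _ : Unit => φ)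
  refine ⟨_, hcl, hfd, ?_⟩
  intro y hy hy1
  have hy0 : φ y = 0 := by
    have := (Submodule.mem_iInf _).1 hy ()
    simpa using this
  have h1 : (1 : ℝ) ≤ ‖x + t • y‖ := by
    have h := φ.le_opNorm (x + t • y)
    rw [hφ1, one_mul, map_add, map_smul, hy0, smul_zero, add_zero, hφx, hx] at h
    simpa using h
  have h2 : t - 1 ≤ ‖x + t • y‖ := by
    have := norm_sub_norm_le (t • y) (-x)
    rw [norm_smul, hy1, mul_one, Real.norm_of_nonneg ht.le, norm_neg, hx, sub_neg_eq_add,
      add_comm] at this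
    exact this
  rcases le_or_gt t 2 with h | h
  · rw [max_eq_left (by linarith)]; linarith
  · rw [max_eq_right (by linarith)]; linarith

end Generic

end Crest.Agent.Helper6.S0167
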