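import Mathlib
import Crest.Prelude.Def_DaugavetL1
import Crest.Agent.Helper6.S0167Gen

/-!
S0167 (row 125), the `L¹` lower bound for the midpoint modulus (helper6).

For a subspace `E` of `L¹(P)` whose unit ball is totally bounded in measure, every unit `x ∈ E`,
`t > 0` and `η > 0` admit a closed finite-codimensional `S ≤ E` such that
`max (t/2) (t-1) - η ≤ (‖x + t y‖ + ‖x - t y‖)/2 - 1` for all unit `y ∈ S`.
`S` is the common kernel of the functionals `y ↦ ∫ y · sgn g`, `g` in a finite net.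
-/

set_option autoImplicit false

namespace Crest.Agent.Helper6.S0167

open MeasureTheory Crest.AnalysisR.L1Subspace

section L1

variable {Ω : Type} [MeasurableSpace Ω] {P : Measure Ω}

/-- Sign with values `±1` (`+1` at `0`). -/
noncomputable def sgn (g : Ω → ℝ) (ω : Ω) : ℝ := if 0 ≤ g ω then 1 else -1

lemma measurable_sgn {g : Ω → ℝ} (hg : Measurable g) : Measurable (sgn g) :=
  Measurable.ite (measurableSet_le measurable_const hg) measurable_const measurable_const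

lemma abs_sgn (g : Ω → ℝ) (ω : Ω) : |sgn g ω| = 1 := by
  unfold sgn; split_ifs <;> simp

lemma integrable_mul_sgn {y g : Ω → ℝ} (hy : Integrable y P) (hg : Measurable g) :
    Integrable (fun ω => y ω * sgn g ω) P :=
  hy.mul_bdd (c := 1) (measurable_sgn hg).aestronglyMeasurable
    (Filter.Eventually.of_forall fun ω => by rw [Real.norm_eq_abs, abs_sgn])

/-- Pointwise: if `|y - g| ≤ a` then `|y| ≤ y * sgn g + 2 a`. -/
lemma abs_le_mul_sgn_add {y g a : ℝ} (h : |y - g| ≤ a) (s : ℝ) (hs : s = if 0 ≤ g then 1 else -1) :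
    |y| ≤ y * s + 2 * a := by
  rw [abs_le] at h
  obtain ⟨h1, h2⟩ := h
  split_ifs at hs with hg
  · rw [hs, mul_one]
    rcases abs_cases y with ⟨e, _⟩ | ⟨e, _⟩ <;> rw [e] <;> linarith
  · rw [hs, mul_neg_one]
    push Not at hg
    rcases abs_cases y with ⟨e, _⟩ | ⟨e, _⟩ <;> rw [e] <;> linarith

/-- If `∫ y · sgn g = 0`, then at least half of the mass of `y` (up to `a`) sits on the set where
`y` and `g` differ by more than `a`. -/
theorem half_mass [IsProbabilityMeasure P] {y g : Ω → ℝ} (hy : Integrable y P)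
    (hym : Measurable y) (hgm : Measurable g) (h0 : ∫ ω, y ω * sgn g ω ∂P = 0) {a : ℝ}
    (ha : 0 ≤ a) :
    ∫ ω, |y ω| ∂P ≤ 2 * ∫ ω in {ω | a < |y ω - g ω|}, |y ω| ∂P + 2 * a := by
  set A : Set Ω := {ω | a < |y ω - g ω|} with hA
  have hAm : MeasurableSet A := measurableSet_lt measurable_const ((hym.sub hgm).abs)
  have hys : Integrable (fun ω => y ω * sgn g ω) P := integrable_mul_sgn hy hgm
  have hyabs : Integrable (fun ω => |y ω|) P := hy.abs
  have e1 : ∫ ω, |y ω| ∂P = ∫ ω in A, |y ω| ∂P + ∫ ω in Aᶜ, |y ω| ∂P :=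
    (integral_add_compl hAm hyabs).symm
  have e2 : ∫ ω in A, y ω * sgn g ω ∂P + ∫ ω in Aᶜ, y ω * sgn g ω ∂P = 0 := by
    rw [integral_add_compl hAm hys, h0]
  have h3 : ∫ ω in Aᶜ, |y ω| ∂P ≤ ∫ ω in Aᶜ, (y ω * sgn g ω + 2 * a) ∂P := by
    apply setIntegral_mono_on hyabs.integrableOn
      ((hys.add (integrable_const _)).integrableOn) hAm.compl
    intro ω hω
    have hω' : |y ω - g ω| ≤ a := not_lt.1 hω
    exact abs_le_mul_sgn_add hω' _ rfl
  have h4 : ∫ ω in Aᶜ, (y ω * sgn g ω + 2 * a) ∂P ≤ ∫ ω in Aᶜ, y ω * sgn g ω ∂P + 2 * a := by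
    rw [integral_add hys.integrableOn (integrable_const _).integrableOn, setIntegral_const]
    have hm : P.real Aᶜ ≤ 1 := by
      have := measureReal_le_one (μ := P) (s := Aᶜ)
      exact this
    have : P.real Aᶜ • (2 * a) ≤ 2 * a := by
      rw [smul_eq_mul]
      have h0 : 0 ≤ P.real Aᶜ := measureReal_nonneg
      nlinarith
    linarith
  have h5 : -∫ ω in A, y ω * sgn g ω ∂P ≤ ∫ ω in A, |y ω| ∂P := by
    rw [← integral_neg]
    apply setIntegral_mono_on hys.neg.integrableOn hyabs.integrableOn hAm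
    intro ω _
    have : |y ω * sgn g ω| = |y ω| := by rw [abs_mul, abs_sgn, mul_one]
    have h := neg_abs_le (y ω * sgn g ω)
    rw [this] at h
    show -(y ω * sgn g ω) ≤ |y ω|
    linarith
  linarith

/-- The continuous functional `y ↦ ∫ y · sgn g` on `L¹(P)`. -/
noncomputable def sgnCLM (P : Measure Ω) (g : Lp ℝ 1 P) : Lp ℝ 1 P →L[ℝ] ℝ :=
  LinearMap.mkContinuous
    { toFun := fun y => ∫ ω, y ω * sgn g ω ∂P
      map_add' := by
        intro y z
        have hg := (Lp.stronglyMeasurable g).measurable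
        rw [← integral_add (integrable_mul_sgn (L1.integrable_coeFn y) hg)
          (integrable_mul_sgn (L1.integrable_coeFn z) hg)]
        apply integral_congr_ae
        filter_upwards [Lp.coeFn_add y z] with ω hω
        rw [hω, Pi.add_apply, add_mul]
      map_smul' := by
        intro c y
        simp only [RingHom.id_apply, smul_eq_mul]
        rw [← integral_const_mul]
        apply integral_congr_ae
        filter_upwards [Lp.coeFn_smul c y] with ω hω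
        rw [hω, Pi.smul_apply, smul_eq_mul, mul_assoc] }
    1 (by
      intro y
      rw [one_mul, L1.norm_eq_integral_norm]
      calc ‖∫ ω, y ω * sgn g ω ∂P‖ ≤ ∫ ω, ‖y ω * sgn g ω‖ ∂P :=
            norm_integral_le_integral_norm _
        _ = ∫ ω, ‖y ω‖ ∂P := by
            congr 1; ext ω
            rw [norm_mul, Real.norm_eq_abs (sgn g ω), abs_sgn, mul_one])

lemma sgnCLM_apply (g y : Lp ℝ 1 P) : sgnCLM P g y = ∫ ω, y ω * sgn g ω ∂P := rfl

/-- `‖x + t y‖ + ‖x - t y‖ ≥ 2 ∫_{Aᶜ} |x| + 2 t ∫_A |y|` in `L¹`. -/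
theorem norm_add_norm_sub_ge (x y : Lp ℝ 1 P) (t : ℝ) (ht : 0 ≤ t) {A : Set Ω}
    (hA : MeasurableSet A) :
    2 * ∫ ω in Aᶜ, |x ω| ∂P + 2 * t * ∫ ω in A, |y ω| ∂P ≤ ‖x + t • y‖ + ‖x - t • y‖ := by
  have hx := L1.integrable_coeFn x
  have hy := L1.integrable_coeFn y
  have e1 : ‖x + t • y‖ = ∫ ω, |x ω + t * y ω| ∂P := by
    rw [L1.norm_eq_integral_norm]
    apply integral_congr_ae
    filter_upwards [Lp.coeFn_add x (t • y), Lp.coeFn_smul t y] with ω h1 h2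
    rw [h1, Pi.add_apply, h2, Pi.smul_apply, smul_eq_mul, Real.norm_eq_abs]
  have e2 : ‖x - t • y‖ = ∫ ω, |x ω - t * y ω| ∂P := by
    rw [L1.norm_eq_integral_norm]
    apply integral_congr_ae
    filter_upwards [Lp.coeFn_sub x (t • y), Lp.coeFn_smul t y] with ω h1 h2
    rw [h1, Pi.sub_apply, h2, Pi.smul_apply, smul_eq_mul, Real.norm_eq_abs]
  have i1 : Integrable (fun ω => |x ω + t * y ω|) P := (hx.add (hy.const_mul t)).abs
  have i2 : Integrable (fun ω => |x ω - t * y ω|) P := (hx.sub (hy.const_mul t)).abs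
  have i3 : Integrable (fun ω => |x ω + t * y ω| + |x ω - t * y ω|) P := i1.add i2
  rw [e1, e2, ← integral_add i1 i2, ← integral_add_compl hA i3]
  have hA1 : 2 * t * ∫ ω in A, |y ω| ∂P ≤ ∫ ω in A, (|x ω + t * y ω| + |x ω - t * y ω|) ∂P := by
    rw [← integral_const_mul]
    apply setIntegral_mono_on (hy.abs.const_mul _).integrableOn i3.integrableOn hA
    intro ω _
    have h := abs_sub (x ω + t * y ω) (x ω - t * y ω)
    have e : x ω + t * y ω - (x ω - t * y ω) = 2 * t * y ω := by ring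
    rw [e, abs_mul, abs_of_nonneg (by positivity : (0 : ℝ) ≤ 2 * t)] at h
    linarith
  have hA2 : 2 * ∫ ω in Aᶜ, |x ω| ∂P ≤ ∫ ω in Aᶜ, (|x ω + t * y ω| + |x ω - t * y ω|) ∂P := by
    rw [← integral_const_mul]
    apply setIntegral_mono_on (hx.abs.const_mul _).integrableOn i3.integrableOn hA.compl
    intro ω _
    have h := abs_add_le (x ω + t * y ω) (x ω - t * y ω)
    have e : x ω + t * y ω + (x ω - t * y ω) = 2 * x ω := by ring
    rw [e, abs_mul, abs_of_nonneg (by norm_num : (0 : ℝ) ≤ 2)] at h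
    linarith
  linarith

/-- Absolute continuity of the integral of `|x|`. -/
theorem exists_pos_setIntegral_abs_lt {x : Ω → ℝ} (hx : Integrable x P) {η : ℝ} (hη : 0 < η) :
    ∃ δ : ℝ, 0 < δ ∧ ∀ A : Set Ω, P A < ENNReal.ofReal δ → ∫ ω in A, |x ω| ∂P < η := by
  have hfin : ∫⁻ ω, ‖x ω‖ₑ ∂P ≠ ⊤ := hx.2.ne
  obtain ⟨δ', hδ'0, hδ'⟩ := exists_pos_setLIntegral_lt_of_measure_lt hfin
    (ε := ENNReal.ofReal η) (by simpa using hη)
  obtain ⟨δ, hδ0, hδle⟩ : ∃ δ : ℝ, 0 < δ ∧ ENNReal.ofReal δ ≤ δ' := by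
    by_cases htop : δ' = ⊤
    · exact ⟨1, one_pos, by rw [htop]; exact le_top⟩
    · exact ⟨δ'.toReal, ENNReal.toReal_pos hδ'0.ne' htop, by rw [ENNReal.ofReal_toReal htop]⟩
  refine ⟨δ, hδ0, fun A hA => ?_⟩
  have h1 := hδ' A (lt_of_lt_of_le hA hδle)
  have h2 : ∫ ω in A, |x ω| ∂P = (∫⁻ ω in A, ‖x ω‖ₑ ∂P).toReal := by
    have := integral_norm_eq_lintegral_enorm (μ := P.restrict A) hx.1.restrict
    simpa [Real.norm_eq_abs] using this
  rw [h2]
  exact ENNReal.toReal_lt_of_lt_ofReal h1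

/-- **Midpoint lower bound in `L¹`.** -/
theorem midpointGE_L1 [IsProbabilityMeasure P] (E : Submodule ℝ (Lp ℝ 1 P))
    (htb : UnitBallTotallyBoundedInMeasure P E) (x : E) (hx : ‖x‖ = 1) (t : ℝ) (ht : 0 < t)
    (η : ℝ) (hη : 0 < η) :
    ∃ S : Submodule ℝ E, IsClosed (S : Set E) ∧ FiniteDimensional ℝ (E ⧸ S) ∧
      ∀ y ∈ S, ‖y‖ = 1 →
        max (t / 2) (t - 1) - η ≤ (‖x + t • y‖ + ‖x - t • y‖) / 2 - 1 := by
  -- absolute continuity for `x`
  obtain ⟨δ, hδ0, hδ⟩ := exists_pos_setIntegral_abs_lt (L1.integrable_coeFn (x : Lp ℝ 1 P))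
    (half_pos hη)
  set ε : ℝ := min δ (η / (2 * t)) with hε
  have hε0 : 0 < ε := lt_min hδ0 (by positivity)
  obtain ⟨s, hs, hnet⟩ := htb ε hε0
  -- the subspace
  obtain ⟨hcl, hfd⟩ := cof_iInf_ker (fun g : s => (sgnCLM P g.1).comp E.subtypeL)
  refine ⟨_, hcl, hfd, ?_⟩
  intro y hy hy1
  have hyE : ((y : Lp ℝ 1 P)) ∈ E := y.2
  have hy1' : ‖(y : Lp ℝ 1 P)‖ = 1 := by rw [← hy1]; rfl
  obtain ⟨g, hgs, hdist⟩ := hnet y hyE hy1'.le
  -- extract `a`
  have hne : {a : ℝ | 0 < a ∧ P {z | a < abs (((y : Lp ℝ 1 P) : Ω → ℝ) z - (g : Ω → ℝ) z)} <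
      ENNReal.ofReal a}.Nonempty := by
    refine ⟨2, by norm_num, ?_⟩
    calc P {z | 2 < abs (((y : Lp ℝ 1 P) : Ω → ℝ) z - (g : Ω → ℝ) z)} ≤ 1 := prob_le_one
      _ < ENNReal.ofReal 2 := by
        rw [← ENNReal.ofReal_one]
        exact (ENNReal.ofReal_lt_ofReal_iff (by norm_num)).2 (by norm_num)
  obtain ⟨a, ⟨ha0, haP⟩, haε⟩ := exists_lt_of_csInf_lt hne hdist
  set A : Set Ω := {z | a < abs (((y : Lp ℝ 1 P) : Ω → ℝ) z - (g : Ω → ℝ) z)} with hAdef
  have hym := (Lp.stronglyMeasurable (y : Lp ℝ 1 P)).measurable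
  have hgm := (Lp.stronglyMeasurable g).measurable
  have hAm : MeasurableSet A := measurableSet_lt measurable_const ((hym.sub hgm).abs)
  -- `∫ y sgn g = 0`
  have h0 : ∫ ω, (y : Lp ℝ 1 P) ω * sgn g ω ∂P = 0 := by
    have := (Submodule.mem_iInf _).1 hy ⟨g, hgs⟩
    exact this
  have hhalf := half_mass (L1.integrable_coeFn (y : Lp ℝ 1 P)) hym hgm h0 ha0.le
  have hnormy : ∫ ω, |(y : Lp ℝ 1 P) ω| ∂P = 1 := by
    rw [← hy1', L1.norm_eq_integral_norm]; rfl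
  have hnormx : ∫ ω, |(x : Lp ℝ 1 P) ω| ∂P = 1 := by
    have : ‖(x : Lp ℝ 1 P)‖ = 1 := by rw [← hx]; rfl
    rw [← this, L1.norm_eq_integral_norm]; rfl
  rw [hnormy] at hhalf
  -- small mass of `x` on `A`
  have hxA : ∫ ω in A, |(x : Lp ℝ 1 P) ω| ∂P < η / 2 := by
    apply hδ A
    calc P A < ENNReal.ofReal a := haP
      _ ≤ ENNReal.ofReal δ := ENNReal.ofReal_le_ofReal (le_trans haε.le (min_le_left _ _))
  have hxAc : ∫ ω in Aᶜ, |(x : Lp ℝ 1 P) ω| ∂P = 1 - ∫ ω in A, |(x : Lp ℝ 1 P) ω| ∂P := by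
    have := integral_add_compl hAm (L1.integrable_coeFn (x : Lp ℝ 1 P)).abs
    rw [hnormx] at this
    linarith
  have hkey := norm_add_norm_sub_ge (x : Lp ℝ 1 P) (y : Lp ℝ 1 P) t ht.le hAm
  have hnorm1 : ‖x + t • y‖ = ‖(x : Lp ℝ 1 P) + t • (y : Lp ℝ 1 P)‖ := rfl
  have hnorm2 : ‖x - t • y‖ = ‖(x : Lp ℝ 1 P) - t • (y : Lp ℝ 1 P)‖ := rfl
  rw [hnorm1, hnorm2]
  have hta : t * a ≤ η / 2 := by
    have h1 : a ≤ η / (2 * t) := le_trans haε.le (min_le_right _ _)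
    have h2 : t * a ≤ t * (η / (2 * t)) := mul_le_mul_of_nonneg_left h1 ht.le
    have h3 : t * (η / (2 * t)) = η / 2 := by field_simp
    linarith
  -- the trivial bound `≥ 2 t`
  have htriv : 2 * t ≤ ‖(x : Lp ℝ 1 P) + t • (y : Lp ℝ 1 P)‖ +
      ‖(x : Lp ℝ 1 P) - t • (y : Lp ℝ 1 P)‖ := by
    have h := norm_sub_le ((x : Lp ℝ 1 P) + t • (y : Lp ℝ 1 P))
      ((x : Lp ℝ 1 P) - t • (y : Lp ℝ 1 P))
    have e : (x : Lp ℝ 1 P) + t • (y : Lp ℝ 1 P) - ((x : Lp ℝ 1 P) - t • (y : Lp ℝ 1 P)) =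
        (2 * t) • (y : Lp ℝ 1 P) := by
      rw [mul_smul, two_smul]; abel
    rw [e, norm_smul, hy1', mul_one, Real.norm_of_nonneg (by positivity)] at h
    exact h
  have hAy : (1 / 2 : ℝ) - a ≤ ∫ ω in A, |(y : Lp ℝ 1 P) ω| ∂P := by linarith
  have hmain : 2 + t - 2 * η ≤ ‖(x : Lp ℝ 1 P) + t • (y : Lp ℝ 1 P)‖ +
      ‖(x : Lp ℝ 1 P) - t • (y : Lp ℝ 1 P)‖ := by
    have h1 : t * (1 / 2 - a) ≤ t * ∫ ω in A, |(y : Lp ℝ 1 P) ω| ∂P :=
      mul_le_mul_of_nonneg_left hAy ht.le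
    nlinarith
  rcases le_or_gt t 2 with h | h
  · rw [max_eq_left (by linarith)]; linarith
  · rw [max_eq_right (by linarith)]; linarith

end L1

end Crest.Agent.Helper6.S0167
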