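-- Row 211 / S0326, package B3a (helper6): boxes in the Euclidean plane and the packing count for a
-- rotated square lattice.
import Mathlib

set_option autoImplicit false
open MeasureTheory

namespace Crest.Agent.Helper6.S0326

abbrev E2 := EuclideanSpace ℝ (Fin 2)

/-- Half-open axis-parallel box. -/
def box (lo hi : Fin 2 → ℝ) : Set E2 := {q | ∀ m, q m ∈ Set.Ico (lo m) (hi m)}

theorem box_eq_preimage (lo hi : Fin 2 → ℝ) :
    box lo hi = (WithLp.ofLp : E2 → Fin 2 → ℝ) ⁻¹' (Set.pi Set.univ fun m => Set.Ico (lo m) (hi m)) := by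
  ext q
  simp [box]

theorem measurableSet_box (lo hi : Fin 2 → ℝ) : MeasurableSet (box lo hi) := by
  rw [box_eq_preimage]
  exact (PiLp.volume_preserving_ofLp (Fin 2)).measurable
    (MeasurableSet.univ_pi fun m => measurableSet_Ico)

theorem volume_box (lo hi : Fin 2 → ℝ) :
    volume (box lo hi) = ENNReal.ofReal (hi 0 - lo 0) * ENNReal.ofReal (hi 1 - lo 1) := by
  rw [box_eq_preimage, (PiLp.volume_preserving_ofLp (Fin 2)).measure_preimage
    (MeasurableSet.univ_pi fun m => measurableSet_Ico).nullMeasurableSet, Real.volume_pi_Ico,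
    Fin.prod_univ_two]


/-- Lattice point of the rotated `δ`-lattice with frame `b` and origin `p₀`. -/
noncomputable def latt (b : OrthonormalBasis (Fin 2) ℝ E2) (p₀ : E2) (δ : ℝ) (ij : ℤ × ℤ) : E2 :=
  p₀ + (δ * (ij.1 : ℝ)) • b 0 + (δ * (ij.2 : ℝ)) • b 1

/-- Half-open core tile of the rotated lattice. -/
def core (b : OrthonormalBasis (Fin 2) ℝ E2) (p₀ : E2) (δ : ℝ) (ij : ℤ × ℤ) : Set E2 :=
  (fun q => b.repr (q - p₀)) ⁻¹'
    box (fun m => δ * ((if m = 0 then ij.1 else ij.2 : ℤ) : ℝ))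
      (fun m => δ * (((if m = 0 then ij.1 else ij.2 : ℤ) : ℝ) + 1))

theorem measurePreserving_frame (b : OrthonormalBasis (Fin 2) ℝ E2) (p₀ : E2) :
    MeasurePreserving (fun q : E2 => b.repr (q - p₀)) volume volume :=
  b.measurePreserving_repr.comp (measurePreserving_sub_right volume p₀)

theorem measurableSet_core (b : OrthonormalBasis (Fin 2) ℝ E2) (p₀ : E2) (δ : ℝ) (ij : ℤ × ℤ) :
    MeasurableSet (core b p₀ δ ij) :=
  (measurePreserving_frame b p₀).measurable (measurableSet_box _ _)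

theorem volume_core (b : OrthonormalBasis (Fin 2) ℝ E2) (p₀ : E2) (δ : ℝ) (ij : ℤ × ℤ) :
    volume (core b p₀ δ ij) = ENNReal.ofReal δ * ENNReal.ofReal δ := by
  unfold core
  rw [(measurePreserving_frame b p₀).measure_preimage (measurableSet_box _ _).nullMeasurableSet,
    volume_box]
  congr 1 <;> · congr 1; simp; ring

theorem core_disjoint (b : OrthonormalBasis (Fin 2) ℝ E2) (p₀ : E2) (δ : ℝ) (hδ : 0 < δ)
    (ij ij' : ℤ × ℤ) (h : ij ≠ ij') : Disjoint (core b p₀ δ ij) (core b p₀ δ ij') := by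
  rw [Set.disjoint_left]
  intro q hq hq'
  apply h
  have key : ∀ (i i' : ℤ) (t : ℝ), δ * (i : ℝ) ≤ t → t < δ * ((i : ℝ) + 1) → δ * (i' : ℝ) ≤ t →
      t < δ * ((i' : ℝ) + 1) → i = i' := by
    intro i i' t h1 h2 h3 h4
    have e1 : (i : ℝ) < (i' : ℝ) + 1 := by
      by_contra hc
      rw [not_lt] at hc
      nlinarith
    have e2 : (i' : ℝ) < (i : ℝ) + 1 := by
      by_contra hc
      rw [not_lt] at hc
      nlinarith
    have e1' : i < i' + 1 := by exact_mod_cast e1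
    have e2' : i' < i + 1 := by exact_mod_cast e2
    omega
  have h0 := hq 0
  have h0' := hq' 0
  have h1 := hq 1
  have h1' := hq' 1
  simp only [Set.mem_Ico, if_true] at h0 h0'
  simp only [Set.mem_Ico, Fin.isValue, one_ne_zero, if_false] at h1 h1'
  exact Prod.ext (key _ _ _ h0.1 h0.2 h0'.1 h0'.2) (key _ _ _ h1.1 h1.2 h1'.1 h1'.2)

theorem core_subset (b : OrthonormalBasis (Fin 2) ℝ E2) (p₀ : E2) (δ : ℝ) (hδ : 0 < δ)
    (ij : ℤ × ℤ) (q : E2) (hq : q ∈ core b p₀ δ ij) (m : Fin 2) :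
    |q m - latt b p₀ δ ij m| < 2 * δ := by
  have h0 := hq 0
  have h1 := hq 1
  simp only [Set.mem_Ico, if_true] at h0
  simp only [Set.mem_Ico, Fin.isValue, one_ne_zero, if_false] at h1
  set u0 : ℝ := b.repr (q - p₀) 0 - δ * (ij.1 : ℝ) with hu0
  set u1 : ℝ := b.repr (q - p₀) 1 - δ * (ij.2 : ℝ) with hu1
  have hu0' : 0 ≤ u0 ∧ u0 < δ := ⟨by linarith [h0.1], by nlinarith [h0.2]⟩
  have hu1' : 0 ≤ u1 ∧ u1 < δ := ⟨by linarith [h1.1], by nlinarith [h1.2]⟩
  have hexp : q - latt b p₀ δ ij = u0 • b 0 + u1 • b 1 := by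
    have hs := b.sum_repr (q - p₀)
    rw [Fin.sum_univ_two] at hs
    have : q - latt b p₀ δ ij = (q - p₀) - ((δ * (ij.1 : ℝ)) • b 0 + (δ * (ij.2 : ℝ)) • b 1) := by
      unfold latt; abel
    rw [this, ← hs, hu0, hu1, sub_smul, sub_smul]
    abel
  have hb : ∀ k : Fin 2, |(b k) m| ≤ 1 := by
    intro k
    have h1 : ‖(b k) m‖ ≤ ‖b k‖ := PiLp.norm_apply_le (b k) m
    rw [b.orthonormal.1 k] at h1
    simpa using h1
  have hcoord : q m - latt b p₀ δ ij m = u0 * (b 0) m + u1 * (b 1) m := by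
    have := congrArg (fun x : E2 => x m) hexp
    simpa using this
  rw [hcoord]
  have a0 := abs_le.1 (hb 0)
  have a1 := abs_le.1 (hb 1)
  rw [abs_lt]
  constructor <;> nlinarith [hu0'.1, hu0'.2, hu1'.1, hu1'.2, a0.1, a0.2, a1.1, a1.2]

/-- Packing count: the lattice points of a rotated `δ`-lattice lying in an axis-parallel box. -/
theorem packing_count (b : OrthonormalBasis (Fin 2) ℝ E2) (p₀ : E2) (δ : ℝ) (hδ : 0 < δ)
    (lo hi : Fin 2 → ℝ) (hlh : ∀ m, lo m ≤ hi m) (F : Finset (ℤ × ℤ))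
    (hF : ∀ ij ∈ F, ∀ m : Fin 2, latt b p₀ δ ij m ∈ Set.Icc (lo m) (hi m)) :
    (F.card : ℝ) * δ ^ 2 ≤ (hi 0 - lo 0 + 4 * δ) * (hi 1 - lo 1 + 4 * δ) := by
  have hsub : (⋃ ij ∈ F, core b p₀ δ ij) ⊆
      box (fun m => lo m - 2 * δ) (fun m => hi m + 2 * δ) := by
    intro q hq
    simp only [Set.mem_iUnion] at hq
    obtain ⟨ij, hij, hq⟩ := hq
    intro m
    have h1 := abs_lt.1 (core_subset b p₀ δ hδ ij q hq m)
    have h2 := hF ij hij m
    constructor <;> linarith [h1.1, h1.2, h2.1, h2.2]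
  have hmeas : volume (⋃ ij ∈ F, core b p₀ δ ij) = ∑ ij ∈ F, volume (core b p₀ δ ij) :=
    measure_biUnion_finset
      (fun ij _ ij' _ h => core_disjoint b p₀ δ hδ ij ij' h)
      (fun ij _ => measurableSet_core b p₀ δ ij)
  have hle := measure_mono (μ := volume) hsub
  rw [hmeas, volume_box] at hle
  simp only [volume_core, Finset.sum_const, nsmul_eq_mul] at hle
  have e0 : 0 ≤ hi 0 - lo 0 + 4 * δ := by linarith [hlh 0]
  have e1 : 0 ≤ hi 1 - lo 1 + 4 * δ := by linarith [hlh 1]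
  have hle' : ENNReal.ofReal ((F.card : ℝ) * δ ^ 2) ≤
      ENNReal.ofReal ((hi 0 - lo 0 + 4 * δ) * (hi 1 - lo 1 + 4 * δ)) := by
    rw [ENNReal.ofReal_mul (by positivity), ENNReal.ofReal_mul e0, pow_two,
      ENNReal.ofReal_mul hδ.le, ENNReal.ofReal_natCast]
    convert hle using 2 <;> · congr 1; ring
  exact (ENNReal.ofReal_le_ofReal_iff (mul_nonneg e0 e1)).1 hle'

end Crest.Agent.Helper6.S0326
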