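-- Row 211 / S0326, package B3 (helper6): coarse grid, integral comparison and the assembly of the
-- square-tile cover from helper3's `patch_cover` (taken as the hypothesis `PatchStmt`).
import Mathlib
import Crest.Agent.Helper6.S0326Meas

set_option autoImplicit false
open MeasureTheory

namespace Crest.Agent.Helper6.S0326

/-- The weight `J(v) = (1 + v₁² + h² v₂²)^(-1/2)`. -/
noncomputable def J (h : ℝ) (v : E2) : ℝ := 1 / Real.sqrt (1 + (v 0) ^ 2 + h ^ 2 * (v 1) ^ 2)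

theorem one_le_phi (h : ℝ) (v : E2) : 1 ≤ Real.sqrt (1 + (v 0) ^ 2 + h ^ 2 * (v 1) ^ 2) := by
  have h1 : Real.sqrt 1 ≤ Real.sqrt (1 + (v 0) ^ 2 + h ^ 2 * (v 1) ^ 2) :=
    Real.sqrt_le_sqrt (by nlinarith [sq_nonneg (v 0), sq_nonneg (h * v 1)])
  rwa [Real.sqrt_one] at h1

theorem J_pos (h : ℝ) (v : E2) : 0 < J h v := by
  unfold J
  have := one_le_phi h v
  positivity

theorem J_le_one (h : ℝ) (v : E2) : J h v ≤ 1 := by
  unfold J
  rw [div_le_one (by linarith [one_le_phi h v])]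
  exact one_le_phi h v

theorem abs_apply_le_norm (x : E2) (m : Fin 2) : |x m| ≤ ‖x‖ := by
  have := PiLp.norm_apply_le x m
  simpa using this

theorem norm_le_abs_add (x : E2) : ‖x‖ ≤ |x 0| + |x 1| := by
  rw [EuclideanSpace.norm_eq, Fin.sum_univ_two, Real.sqrt_le_left (by positivity)]
  simp only [Real.norm_eq_abs, sq_abs]
  nlinarith [abs_nonneg (x 0), abs_nonneg (x 1), sq_abs (x 0), sq_abs (x 1)]

theorem sq_sub_le_aux (a t : ℝ) : (a - t) ^ 2 ≤ a ^ 2 + 2 * |a| * |t| + |t| ^ 2 := by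
  have h1 := neg_abs_le (a * t)
  rw [abs_mul] at h1
  rw [sq_abs]
  nlinarith

theorem J_le_add (h : ℝ) (v v' : E2) : J h v ≤ J h v' + (1 + |h|) * ‖v - v'‖ := by
  set φ := Real.sqrt (1 + (v 0) ^ 2 + h ^ 2 * (v 1) ^ 2) with hφ
  set φ' := Real.sqrt (1 + (v' 0) ^ 2 + h ^ 2 * (v' 1) ^ 2) with hφ'
  have h1 : 1 ≤ φ := one_le_phi h v
  have h1' : 1 ≤ φ' := one_le_phi h v'
  set d := |v 0 - v' 0| + |h| * |v 1 - v' 1| with hd
  have hd0 : 0 ≤ d := by positivity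
  have hφsq : φ ^ 2 = 1 + (v 0) ^ 2 + h ^ 2 * (v 1) ^ 2 := by
    rw [hφ, Real.sq_sqrt]; nlinarith [sq_nonneg (v 0), sq_nonneg (h * v 1)]
  have hv0 : |v 0| ≤ φ := by
    rw [hφ]; apply Real.abs_le_sqrt; nlinarith [sq_nonneg (h * v 1)]
  have hv1 : |h| * |v 1| ≤ φ := by
    rw [hφ, ← abs_mul]; apply Real.abs_le_sqrt; nlinarith [sq_nonneg (v 0)]
  have hle : φ' ≤ φ + d := by
    rw [hφ']
    apply Real.sqrt_le_iff.2
    refine ⟨by linarith, ?_⟩
    have e0 : (v' 0) ^ 2 ≤ (v 0) ^ 2 + 2 * |v 0| * |v 0 - v' 0| + |v 0 - v' 0| ^ 2 := by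
      have := sq_sub_le_aux (v 0) (v 0 - v' 0)
      rwa [sub_sub_cancel] at this
    have e1 : h ^ 2 * (v' 1) ^ 2 ≤
        h ^ 2 * (v 1) ^ 2 + 2 * (|h| * |v 1|) * (|h| * |v 1 - v' 1|) + (|h| * |v 1 - v' 1|) ^ 2 := by
      have := sq_sub_le_aux (v 1) (v 1 - v' 1)
      rw [sub_sub_cancel] at this
      have hh0 : 0 ≤ h ^ 2 := sq_nonneg h
      have hh : |h| ^ 2 = h ^ 2 := sq_abs h
      have := mul_le_mul_of_nonneg_left this hh0
      calc h ^ 2 * (v' 1) ^ 2 ≤ h ^ 2 * ((v 1) ^ 2 + 2 * |v 1| * |v 1 - v' 1| + |v 1 - v' 1| ^ 2) := this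
        _ = h ^ 2 * (v 1) ^ 2 + 2 * (|h| * |v 1|) * (|h| * |v 1 - v' 1|) + (|h| * |v 1 - v' 1|) ^ 2 := by
          rw [← hh]; ring
    nlinarith [mul_le_mul_of_nonneg_right hv0 (abs_nonneg (v 0 - v' 0)),
      mul_le_mul_of_nonneg_right hv1 (mul_nonneg (abs_nonneg h) (abs_nonneg (v 1 - v' 1))),
      abs_nonneg (v 0 - v' 0), mul_nonneg (abs_nonneg h) (abs_nonneg (v 1 - v' 1))]
  have hdle : d ≤ (1 + |h|) * ‖v - v'‖ := by
    have a0 := abs_apply_le_norm (v - v') 0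
    have a1 := abs_apply_le_norm (v - v') 1
    simp only [PiLp.sub_apply] at a0 a1
    rw [hd]
    nlinarith [abs_nonneg h, norm_nonneg (v - v')]
  have key : 1 / φ ≤ 1 / φ' + d := by
    have hφ'pos : 0 < φ' := by linarith
    have hφpos : 0 < φ := by linarith
    rw [div_add' _ _ _ hφ'pos.ne', div_le_div_iff₀ hφpos hφ'pos]
    nlinarith [mul_nonneg hd0 (mul_nonneg hφ'pos.le hφpos.le), mul_le_mul h1 h1' (by linarith) (by linarith)]
  show 1 / φ ≤ 1 / φ' + (1 + |h|) * ‖v - v'‖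
  linarith


/-- Coarse half-open grid cell of side `ℓ`. -/
def cell (ℓ : ℝ) (k : ℤ × ℤ) : Set E2 := core (EuclideanSpace.basisFun (Fin 2) ℝ) 0 ℓ k

theorem mem_cell_iff (ℓ : ℝ) (k : ℤ × ℤ) (q : E2) :
    q ∈ cell ℓ k ↔ (ℓ * (k.1 : ℝ) ≤ q 0 ∧ q 0 < ℓ * ((k.1 : ℝ) + 1)) ∧
      (ℓ * (k.2 : ℝ) ≤ q 1 ∧ q 1 < ℓ * ((k.2 : ℝ) + 1)) := by
  unfold cell core box
  simp [Fin.forall_fin_two]

/-- Index of the coarse cell containing a point. -/
noncomputable def kidx (ℓ : ℝ) (q : E2) : ℤ × ℤ := (⌊q 0 / ℓ⌋, ⌊q 1 / ℓ⌋)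

theorem mem_cell_kidx (ℓ : ℝ) (hℓ : 0 < ℓ) (q : E2) : q ∈ cell ℓ (kidx ℓ q) := by
  rw [mem_cell_iff]
  have key : ∀ t : ℝ, ℓ * ((⌊t / ℓ⌋ : ℤ) : ℝ) ≤ t ∧ t < ℓ * (((⌊t / ℓ⌋ : ℤ) : ℝ) + 1) := by
    intro t
    have h1 := Int.floor_le (t / ℓ)
    have h2 := Int.lt_floor_add_one (t / ℓ)
    rw [le_div_iff₀ hℓ] at h1
    rw [div_lt_iff₀ hℓ] at h2
    constructor <;> nlinarith
  exact ⟨key (q 0), key (q 1)⟩

theorem measurableSet_cell (ℓ : ℝ) (k : ℤ × ℤ) : MeasurableSet (cell ℓ k) :=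
  measurableSet_core _ _ _ _

theorem volume_real_cell (ℓ : ℝ) (hℓ : 0 < ℓ) (k : ℤ × ℤ) : volume.real (cell ℓ k) = ℓ ^ 2 := by
  rw [measureReal_def, cell, volume_core, ← ENNReal.ofReal_mul hℓ.le,
    ENNReal.toReal_ofReal (by positivity)]
  ring

theorem volume_cell_ne_top (ℓ : ℝ) (k : ℤ × ℤ) : volume (cell ℓ k) ≠ ⊤ := by
  rw [cell, volume_core]
  exact ENNReal.mul_ne_top ENNReal.ofReal_ne_top ENNReal.ofReal_ne_top

theorem cell_pairwiseDisjoint (ℓ : ℝ) (hℓ : 0 < ℓ) (Kset : Finset (ℤ × ℤ)) :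
    Set.PairwiseDisjoint (↑Kset) (cell ℓ) :=
  fun k _ k' _ h => core_disjoint _ _ _ hℓ k k' h

/-- Two points of the same cell are at distance at most `2ℓ`. -/
theorem dist_le_of_mem_cell (ℓ : ℝ) (_hℓ : 0 < ℓ) (k : ℤ × ℤ) (q q' : E2) (hq : q ∈ cell ℓ k)
    (hq' : q' ∈ cell ℓ k) : dist q q' ≤ 2 * ℓ := by
  rw [mem_cell_iff] at hq hq'
  rw [dist_eq_norm]
  refine (norm_le_abs_add _).trans ?_
  have a0 : |(q - q') 0| ≤ ℓ := by
    simp only [PiLp.sub_apply]; rw [abs_le]; constructor <;> nlinarith [hq.1.1, hq.1.2, hq'.1.1, hq'.1.2]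
  have a1 : |(q - q') 1| ≤ ℓ := by
    simp only [PiLp.sub_apply]; rw [abs_le]; constructor <;> nlinarith [hq.2.1, hq.2.2, hq'.2.1, hq'.2.2]
  linarith

/-- Comparison of a Riemann-type sum over coarse cells with the integral. -/
theorem cell_sum_le (ℓ : ℝ) (hℓ : 0 < ℓ) (Kset : Finset (ℤ × ℤ)) (pk : ℤ × ℤ → E2) (S : Set E2)
    (hS : MeasurableSet S) (hSfin : volume S ≠ ⊤) (hsub : ∀ k ∈ Kset, cell ℓ k ⊆ S)
    (f : E2 → ℝ) (hf : IntegrableOn f S) (hf0 : ∀ q ∈ S, 0 ≤ f q) (ε₂ : ℝ) (hε₂ : 0 ≤ ε₂)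
    (hclose : ∀ k ∈ Kset, ∀ q ∈ cell ℓ k, f (pk k) ≤ f q + ε₂) :
    ∑ k ∈ Kset, ℓ ^ 2 * f (pk k) ≤ (∫ q in S, f q) + ε₂ * volume.real S := by
  have hdisj := cell_pairwiseDisjoint ℓ hℓ Kset
  have h1 : ∀ k ∈ Kset, ℓ ^ 2 * f (pk k) ≤ (∫ q in cell ℓ k, f q) + ε₂ * ℓ ^ 2 := by
    intro k hk
    have hfk : IntegrableOn f (cell ℓ k) := hf.mono_set (hsub k hk)
    have hck : IntegrableOn (fun _ : E2 => f (pk k) - ε₂) (cell ℓ k) :=
      integrableOn_const (volume_cell_ne_top ℓ k)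
    have h := setIntegral_mono_on hck hfk (measurableSet_cell ℓ k)
      (fun q hq => by linarith [hclose k hk q hq])
    rw [setIntegral_const, volume_real_cell ℓ hℓ k, smul_eq_mul] at h
    nlinarith
  have hsum : ∑ k ∈ Kset, ℓ ^ 2 ≤ volume.real S := by
    have h2 : volume.real (⋃ k ∈ Kset, cell ℓ k) = ∑ k ∈ Kset, volume.real (cell ℓ k) :=
      measureReal_biUnion_finset hdisj (fun k _ => measurableSet_cell ℓ k)
        (fun k _ => volume_cell_ne_top ℓ k)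
    rw [Finset.sum_congr rfl (fun k _ => volume_real_cell ℓ hℓ k)] at h2
    rw [← h2]
    exact measureReal_mono (Set.iUnion₂_subset hsub) hSfin
  calc ∑ k ∈ Kset, ℓ ^ 2 * f (pk k)
      ≤ ∑ k ∈ Kset, ((∫ q in cell ℓ k, f q) + ε₂ * ℓ ^ 2) := Finset.sum_le_sum h1
    _ = (∫ q in ⋃ k ∈ Kset, cell ℓ k, f q) + ε₂ * ∑ k ∈ Kset, ℓ ^ 2 := by
        rw [Finset.sum_add_distrib, ← Finset.mul_sum,
          integral_biUnion_finset Kset (fun k _ => measurableSet_cell ℓ k) hdisj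
            (fun k hk => hf.mono_set (hsub k hk))]
    _ ≤ (∫ q in S, f q) + ε₂ * volume.real S := by
        have hi : ∫ q in ⋃ k ∈ Kset, cell ℓ k, f q ≤ ∫ q in S, f q :=
          setIntegral_mono_set hf ((ae_restrict_iff' hS).2 (Filter.Eventually.of_forall hf0))
            (LE.le.eventuallyLE (Set.iUnion₂_subset hsub))
        nlinarith


theorem cell_card_le (ℓ : ℝ) (hℓ : 0 < ℓ) (Kset : Finset (ℤ × ℤ)) (S : Set E2)
    (hSfin : volume S ≠ ⊤) (hsub : ∀ k ∈ Kset, cell ℓ k ⊆ S) :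
    ∑ _k ∈ Kset, ℓ ^ 2 ≤ volume.real S := by
  have h2 : volume.real (⋃ k ∈ Kset, cell ℓ k) = ∑ k ∈ Kset, volume.real (cell ℓ k) :=
    measureReal_biUnion_finset (cell_pairwiseDisjoint ℓ hℓ Kset) (fun k _ => measurableSet_cell ℓ k)
      (fun k _ => volume_cell_ne_top ℓ k)
  rw [Finset.sum_congr rfl (fun k _ => volume_real_cell ℓ hℓ k)] at h2
  rw [← h2]
  exact measureReal_mono (Set.iUnion₂_subset hsub) hSfin

theorem thick_diff_small (D : Set E2) (hD : IsCompact D) (ε₃ : ℝ) (hε₃ : 0 < ε₃) :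
    ∃ d₃ > 0, ∀ r, 0 ≤ r → r ≤ d₃ → volume.real (Metric.cthickening r D \ D) ≤ ε₃ := by
  have hfin : volume D ≠ ⊤ := hD.measure_lt_top.ne
  have htend := tendsto_measure_cthickening_of_isClosed (μ := volume) (s := D)
    ⟨1, one_pos, (hD.cthickening (r := 1)).measure_lt_top.ne⟩ hD.isClosed
  have hlt : volume D < volume D + ENNReal.ofReal ε₃ :=
    ENNReal.lt_add_right hfin (by simpa using hε₃)
  have hev := htend.eventually (Iio_mem_nhds hlt)
  obtain ⟨d, hd, hd'⟩ := Metric.eventually_nhds_iff.1 hev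
  refine ⟨d / 2, by positivity, fun r hr0 hr => ?_⟩
  have hr' : dist r 0 < d := by rw [Real.dist_eq, sub_zero, abs_of_nonneg hr0]; linarith
  have h1 := hd' hr'
  have h2 : volume (Metric.cthickening r D \ D) = volume (Metric.cthickening r D) - volume D :=
    measure_sdiff (Metric.self_subset_cthickening D) hD.measurableSet.nullMeasurableSet hfin
  rw [measureReal_def, h2]
  have h3 : volume (Metric.cthickening r D) - volume D ≤ ENNReal.ofReal ε₃ := by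
    rw [tsub_le_iff_left]; exact h1.le
  exact ENNReal.toReal_le_of_le_ofReal hε₃.le h3

theorem continuous_J (h : ℝ) : Continuous (J h) := by
  unfold J
  have h0 : Continuous fun v : E2 => v 0 := (EuclideanSpace.proj (0 : Fin 2)).continuous
  have h1 : Continuous fun v : E2 => v 1 := (EuclideanSpace.proj (1 : Fin 2)).continuous
  refine Continuous.div continuous_const (Real.continuous_sqrt.comp ?_) (fun v => ?_)
  · exact (continuous_const.add (h0.pow 2)).add (continuous_const.mul (h1.pow 2))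
  · have := one_le_phi h v
    positivity

theorem floor_mem_Icc (x B : ℝ) (hx : |x| ≤ B) :
    ⌊x⌋ ∈ Finset.Icc (-(⌈B⌉ + 1)) (⌈B⌉ + 1) := by
  rw [Finset.mem_Icc]
  have h1 := Int.floor_le x
  have h2 := Int.lt_floor_add_one x
  have h3 := Int.le_ceil B
  have h4 := abs_le.1 hx
  constructor
  · have : (-(⌈B⌉ + 1 : ℤ) : ℝ) < (⌊x⌋ : ℝ) + 1 := by push_cast; linarith
    have : -(⌈B⌉ + 1) < ⌊x⌋ + 1 := by exact_mod_cast this
    omega
  · have : ((⌊x⌋ : ℤ) : ℝ) ≤ ((⌈B⌉ : ℤ) : ℝ) := by linarith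
    have : ⌊x⌋ ≤ ⌈B⌉ := by exact_mod_cast this
    omega

theorem int_mem_Icc_of_abs_le (i : ℤ) (x : ℝ) (h : |(i : ℝ)| ≤ x) :
    i ∈ Finset.Icc (-⌈x⌉) ⌈x⌉ := by
  rw [Finset.mem_Icc]
  have h3 := Int.le_ceil x
  have h4 := abs_le.1 h
  constructor
  · have : ((-⌈x⌉ : ℤ) : ℝ) ≤ (i : ℝ) := by push_cast; linarith
    exact_mod_cast this
  · have : (i : ℝ) ≤ ((⌈x⌉ : ℤ) : ℝ) := by linarith
    exact_mod_cast this

theorem latt_index_bound (b : OrthonormalBasis (Fin 2) ℝ E2) (p₀ : E2) (δ : ℝ) (hδ : 0 < δ)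
    (ij : ℤ × ℤ) (B : ℝ) (h : ‖latt b p₀ δ ij - p₀‖ ≤ B) :
    |(ij.1 : ℝ)| ≤ B / δ ∧ |(ij.2 : ℝ)| ≤ B / δ := by
  have hx : latt b p₀ δ ij - p₀ = (δ * (ij.1 : ℝ)) • b 0 + (δ * (ij.2 : ℝ)) • b 1 := by
    unfold latt; abel
  have h01 : inner ℝ (b 0) (b 1) = (0 : ℝ) := b.orthonormal.2 (by decide)
  have h10 : inner ℝ (b 1) (b 0) = (0 : ℝ) := b.orthonormal.2 (by decide)
  have h00 : inner ℝ (b 0) (b 0) = (1 : ℝ) := by
    rw [real_inner_self_eq_norm_sq, b.orthonormal.1 0]; norm_num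
  have h11 : inner ℝ (b 1) (b 1) = (1 : ℝ) := by
    rw [real_inner_self_eq_norm_sq, b.orthonormal.1 1]; norm_num
  have e0 : inner ℝ (b 0) (latt b p₀ δ ij - p₀) = δ * (ij.1 : ℝ) := by
    rw [hx, inner_add_right, inner_smul_right, inner_smul_right, h00, h01]; ring
  have e1 : inner ℝ (b 1) (latt b p₀ δ ij - p₀) = δ * (ij.2 : ℝ) := by
    rw [hx, inner_add_right, inner_smul_right, inner_smul_right, h10, h11]; ring
  have b0 := abs_real_inner_le_norm (b 0) (latt b p₀ δ ij - p₀)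
  have b1 := abs_real_inner_le_norm (b 1) (latt b p₀ δ ij - p₀)
  rw [e0, b.orthonormal.1 0, one_mul, abs_mul, abs_of_pos hδ] at b0
  rw [e1, b.orthonormal.1 1, one_mul, abs_mul, abs_of_pos hδ] at b1
  constructor
  · rw [le_div_iff₀ hδ]; linarith
  · rw [le_div_iff₀ hδ]; linarith


/-- The statement of helper3's local patch lemma `Crest.Agent.Helper3.patch_cover`. -/
def PatchStmt : Prop :=
  ∀ (A : E2 →L[ℝ] E2) (L M θ : ℝ), 0 < L →
    LinearMap.trace ℝ E2 A.toLinearMap = 0 →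
    LinearMap.det A.toLinearMap ≤ 0 →
    -(L ^ 2 * LinearMap.det A.toLinearMap) ≤ θ → θ < 1 → ‖A‖ ≤ M →
    ∃ b : OrthonormalBasis (Fin 2) ℝ E2, ∀ (δ η : ℝ), 0 < δ → 0 ≤ η →
      ∀ (p₀ v₀ p r : E2) (s : ℝ), |s| ≤ L → ‖r‖ ≤ η * δ →
      ∃ i j : ℤ, (∃ x ∈ Set.Icc (0:ℝ) 1, ∃ y ∈ Set.Icc (0:ℝ) 1,
          p + s • (v₀ + A (p - p₀)) + r =
            (p₀ + (δ * (i - η)) • b 0 + (δ * (j - η)) • b 1) + x • (((1 + 2 * η) * δ) • b 0)
              + y • (((1 + 2 * η) * δ) • b 1) + s • (v₀ + A ((δ * i) • b 0 + (δ * j) • b 1))) ∧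
        ‖p - (p₀ + (δ * i) • b 0 + (δ * j) • b 1)‖ ≤ 2 * (1 + L * M) / (1 - θ) * δ

set_option maxHeartbeats 1600000 in
/-- The square-tile cover with a `Finset` index. -/
theorem main (hpatch : PatchStmt) (D : Set E2) (hD : IsCompact D) (V : E2 → E2) (U : Set E2) (hU : IsOpen U)
    (hDU : D ⊆ U) (hV : ContDiffOn ℝ 1 V U) (L h : ℝ) (hL : 0 < L)
    (htr : ∀ p ∈ D, LinearMap.trace ℝ _ (fderiv ℝ V p).toLinearMap = 0)
    (hdet : ∀ p ∈ D, -(L ^ 2)⁻¹ < LinearMap.det (fderiv ℝ V p).toLinearMap ∧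
      LinearMap.det (fderiv ℝ V p).toLinearMap ≤ 0)
    (ε : ℝ) (hε : 0 < ε) :
    ∃ (I : Finset ((ℤ × ℤ) × (ℤ × ℤ))) (c a b g : (ℤ × ℤ) × (ℤ × ℤ) → E2),
      (∀ i ∈ I, a i ≠ 0 ∧ ‖b i‖ = ‖a i‖ ∧ inner ℝ (a i) (b i) = 0) ∧
      (∀ p ∈ D, ∀ s : ℝ, |s| ≤ L → ∃ i ∈ I, ∃ x ∈ Set.Icc (0:ℝ) 1, ∃ y ∈ Set.Icc (0:ℝ) 1,
          p + s • V p = c i + x • a i + y • b i + s • g i) ∧
      ∑ i ∈ I, ‖a i‖ ^ 2 * J h (g i) ≤ (∫ p in D, J h (V p)) + ε := by
  classical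
  rcases D.eq_empty_or_nonempty with hDe | hDne
  · subst hDe
    exact ⟨∅, 0, 0, 0, 0, by simp, by simp, by simpa using hε.le⟩
  -- compactness data
  obtain ⟨r₀, hr₀, hK₁U⟩ := hD.exists_cthickening_subset_open hU hDU
  have hK₁c : IsCompact (Metric.cthickening r₀ D) := hD.cthickening
  have hDK₁ : D ⊆ Metric.cthickening r₀ D := Metric.self_subset_cthickening D
  have hdV : ContinuousOn (fderiv ℝ V) U := hV.continuousOn_fderiv_of_isOpen hU le_rfl
  have hVd : ∀ q ∈ U, HasFDerivAt V (fderiv ℝ V q) q := fun q hq =>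
    ((hV.differentiableOn one_ne_zero q hq).differentiableAt (hU.mem_nhds hq)).hasFDerivAt
  obtain ⟨M₁, hM₁⟩ := hK₁c.exists_bound_of_continuousOn (hdV.mono hK₁U)
  have hdetc : ContinuousOn (fun p => -(L ^ 2 * LinearMap.det (fderiv ℝ V p).toLinearMap)) D := by
    have h1 : ContinuousOn (fun p => ContinuousLinearMap.det (fderiv ℝ V p)) D :=
      ContinuousLinearMap.continuous_det.comp_continuousOn (hdV.mono hDU)
    exact (continuousOn_const.mul h1).neg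
  obtain ⟨pmax, hpmax, hmax⟩ := hD.exists_isMaxOn hDne hdetc
  set θ : ℝ := -(L ^ 2 * LinearMap.det (fderiv ℝ V pmax).toLinearMap) with hθdef
  have hL2 : 0 < L ^ 2 := by positivity
  have hθ1 : θ < 1 := by
    have h1 := (hdet pmax hpmax).1
    have h2 : L ^ 2 * (-(L ^ 2)⁻¹) < L ^ 2 * LinearMap.det (fderiv ℝ V pmax).toLinearMap :=
      mul_lt_mul_of_pos_left h1 hL2
    rw [mul_neg, mul_inv_cancel₀ hL2.ne'] at h2
    rw [hθdef]; linarith
  have hθ0 : 0 ≤ θ := by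
    have h1 := (hdet pmax hpmax).2
    rw [hθdef]; nlinarith
  have hθD : ∀ p ∈ D, -(L ^ 2 * LinearMap.det (fderiv ℝ V p).toLinearMap) ≤ θ :=
    fun p hp => hmax hp
  have hM₁0 : 0 ≤ M₁ := (norm_nonneg _).trans (hM₁ pmax (hDK₁ hpmax))
  set W : ℝ := volume.real (Metric.cthickening r₀ D) with hWdef
  have hW0 : 0 ≤ W := measureReal_nonneg
  have hK₁fin : volume (Metric.cthickening r₀ D) ≠ ⊤ := hK₁c.measure_lt_top.ne
  -- parameters
  set η : ℝ := min (1 / 11) (ε / (44 * (W + 1))) with hηdef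
  have hη0 : 0 < η := lt_min (by norm_num) (by positivity)
  have hη1 : η ≤ 1 / 11 := min_le_left _ _
  have hη2 : η * (44 * (W + 1)) ≤ ε := (le_div_iff₀ (by positivity)).1 (min_le_right _ _)
  set G : ℝ := (1 + 2 * η) ^ 2 * (1 + η) ^ 2 with hGdef
  have hG1 : G ≤ 1 + 11 * η := by
    rw [hGdef]
    nlinarith [mul_nonneg hη0.le hη0.le, mul_nonneg (mul_nonneg hη0.le hη0.le) hη0.le,
      mul_nonneg (mul_nonneg hη0.le hη0.le) (mul_nonneg hη0.le hη0.le)]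
  have hG1' : 1 ≤ G := by
    rw [hGdef]
    nlinarith [mul_nonneg hη0.le hη0.le, mul_nonneg (mul_nonneg hη0.le hη0.le) hη0.le,
      mul_nonneg (mul_nonneg hη0.le hη0.le) (mul_nonneg hη0.le hη0.le)]
  have hG2 : G ≤ 2 := by linarith
  have hGW : (G - 1) * W ≤ ε / 4 := by nlinarith
  set ε₁ : ℝ := ε / (16 * (W + 1)) with hε₁def
  have hε₁0 : 0 < ε₁ := by positivity
  have hε₁W : ε₁ * W ≤ ε / 16 := by
    have h1 : ε₁ * (16 * (W + 1)) = ε := by rw [hε₁def]; field_simp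
    nlinarith
  set C₀ : ℝ := 2 * (1 + L * M₁) / (1 - θ) with hC₀def
  have hC₀0 : 0 < C₀ := by
    have : 0 < 1 - θ := by linarith
    positivity
  set c₁ : ℝ := η / (2 * C₀ + 4) with hc₁def
  have hc₁0 : 0 < c₁ := by positivity
  set ω : ℝ := η * c₁ / (2 * L) with hωdef
  have hω0 : 0 < ω := by positivity
  obtain ⟨d₁, hd₁, hDV⟩ := Metric.uniformContinuousOn_iff.1
    (hK₁c.uniformContinuousOn_of_continuous (hdV.mono hK₁U)) ω hω0
  have hJVc : ContinuousOn (fun q => J h (V q)) U :=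
    (continuous_J h).comp_continuousOn hV.continuousOn
  obtain ⟨d₂, hd₂, hJV⟩ := Metric.uniformContinuousOn_iff.1
    (hK₁c.uniformContinuousOn_of_continuous (hJVc.mono hK₁U)) ε₁ hε₁0
  obtain ⟨d₃, hd₃, hthick⟩ := thick_diff_small D hD (ε / 8) (by positivity)
  set ℓ : ℝ := min (min (r₀ / 2) (d₁ / 4)) (min (min (d₂ / 4) (d₃ / 2))
    (ε₁ / ((1 + |h|) * (4 * M₁) + 1))) with hℓdef
  have hden : 0 < (1 + |h|) * (4 * M₁) + 1 := by positivity
  have hℓ0 : 0 < ℓ := by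
    rw [hℓdef]
    refine lt_min (lt_min (by positivity) (by positivity)) (lt_min (lt_min (by positivity)
      (by positivity)) (by positivity))
  have hℓr : 2 * ℓ ≤ r₀ := by
    have : ℓ ≤ r₀ / 2 := (min_le_left _ _).trans (min_le_left _ _)
    linarith
  have hℓd₁ : 2 * ℓ < d₁ := by
    have : ℓ ≤ d₁ / 4 := (min_le_left _ _).trans (min_le_right _ _)
    linarith
  have hℓd₂ : 2 * ℓ < d₂ := by
    have : ℓ ≤ d₂ / 4 := (min_le_right _ _).trans ((min_le_left _ _).trans (min_le_left _ _))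
    linarith
  have hℓd₃ : 2 * ℓ ≤ d₃ := by
    have : ℓ ≤ d₃ / 2 := (min_le_right _ _).trans ((min_le_left _ _).trans (min_le_right _ _))
    linarith
  have hℓε : (1 + |h|) * (M₁ * (4 * ℓ)) ≤ ε₁ := by
    have h1 : ℓ ≤ ε₁ / ((1 + |h|) * (4 * M₁) + 1) := (min_le_right _ _).trans (min_le_right _ _)
    rw [le_div_iff₀ hden] at h1
    nlinarith [abs_nonneg h]
  set δ : ℝ := c₁ * ℓ with hδdef
  have hδ0 : 0 < δ := by positivity
  have hδℓ : (2 * C₀ + 4) * δ = η * ℓ := by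
    rw [hδdef, hc₁def]; field_simp
  have hC₀δ : C₀ * δ ≤ ℓ := by nlinarith
  -- the coarse cells meeting `D`
  obtain ⟨R, hR⟩ := hD.isBounded.exists_norm_le
  set Nk : ℤ := ⌈R / ℓ⌉ + 1 with hNk
  set Kset : Finset (ℤ × ℤ) := ((Finset.Icc (-Nk) Nk) ×ˢ (Finset.Icc (-Nk) Nk)).filter
    (fun k => (cell ℓ k ∩ D).Nonempty) with hKset
  have hkD : ∀ p ∈ D, kidx ℓ p ∈ Kset := by
    intro p hp
    rw [hKset, Finset.mem_filter, Finset.mem_product]
    refine ⟨⟨?_, ?_⟩, ⟨p, mem_cell_kidx ℓ hℓ0 p, hp⟩⟩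
    · apply floor_mem_Icc
      rw [abs_div, abs_of_pos hℓ0]
      exact div_le_div_of_nonneg_right ((abs_apply_le_norm p 0).trans (hR p hp)) hℓ0.le
    · apply floor_mem_Icc
      rw [abs_div, abs_of_pos hℓ0]
      exact div_le_div_of_nonneg_right ((abs_apply_le_norm p 1).trans (hR p hp)) hℓ0.le
  have hpk : ∀ k ∈ Kset, ∃ q, q ∈ cell ℓ k ∧ q ∈ D := fun k hk => by
    rw [hKset, Finset.mem_filter] at hk
    exact hk.2
  choose! pk hpkc hpkD using hpk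
  have hbas : ∀ k ∈ Kset, ∃ b : OrthonormalBasis (Fin 2) ℝ E2, ∀ (δ η : ℝ), 0 < δ → 0 ≤ η →
      ∀ (p₀ v₀ p r : E2) (s : ℝ), |s| ≤ L → ‖r‖ ≤ η * δ →
      ∃ i j : ℤ, (∃ x ∈ Set.Icc (0:ℝ) 1, ∃ y ∈ Set.Icc (0:ℝ) 1,
          p + s • (v₀ + fderiv ℝ V (pk k) (p - p₀)) + r =
            (p₀ + (δ * (i - η)) • b 0 + (δ * (j - η)) • b 1) + x • (((1 + 2 * η) * δ) • b 0)
              + y • (((1 + 2 * η) * δ) • b 1)
              + s • (v₀ + fderiv ℝ V (pk k) ((δ * i) • b 0 + (δ * j) • b 1))) ∧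
        ‖p - (p₀ + (δ * i) • b 0 + (δ * j) • b 1)‖ ≤ 2 * (1 + L * M₁) / (1 - θ) * δ :=
    fun k hk => hpatch (fderiv ℝ V (pk k)) L M₁ θ hL
      (htr _ (hpkD k hk)) (hdet _ (hpkD k hk)).2 (hθD _ (hpkD k hk)) hθ1
      (hM₁ _ (hDK₁ (hpkD k hk)))
  have : Nonempty (OrthonormalBasis (Fin 2) ℝ E2) := ⟨EuclideanSpace.basisFun (Fin 2) ℝ⟩
  choose! bas hbas' using hbas
  -- the tiles
  set Nz : ℤ := ⌈4 * ℓ / δ⌉ with hNz
  set Z : Finset (ℤ × ℤ) := Finset.Icc (-Nz) Nz ×ˢ Finset.Icc (-Nz) Nz with hZ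
  set lo : ℤ × ℤ → Fin 2 → ℝ :=
    fun k m => ℓ * ((if m = 0 then k.1 else k.2 : ℤ) : ℝ) - C₀ * δ with hlo
  set hi : ℤ × ℤ → Fin 2 → ℝ :=
    fun k m => ℓ * (((if m = 0 then k.1 else k.2 : ℤ) : ℝ) + 1) + C₀ * δ with hhi
  set pred : ℤ × ℤ → ℤ × ℤ → Prop :=
    fun k ij => ∀ m : Fin 2, latt (bas k) (pk k) δ ij m ∈ Set.Icc (lo k m) (hi k m) with hpred
  set I : Finset ((ℤ × ℤ) × (ℤ × ℤ)) := (Kset ×ˢ Z).filter (fun x => pred x.1 x.2) with hI
  set gF : (ℤ × ℤ) × (ℤ × ℤ) → E2 := fun x => V (pk x.1) +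
    fderiv ℝ V (pk x.1) ((δ * (x.2.1 : ℝ)) • bas x.1 0 + (δ * (x.2.2 : ℝ)) • bas x.1 1) with hgF
  -- a tile of patch `k` is close to `pk k`
  have hpred_dist : ∀ k ∈ Kset, ∀ ij, pred k ij → ‖latt (bas k) (pk k) δ ij - pk k‖ ≤ 4 * ℓ := by
    intro k hk ij hp
    have hc := (mem_cell_iff ℓ k (pk k)).1 (hpkc k hk)
    have h0 := hp 0
    have h1 := hp 1
    simp only [hlo, hhi, Set.mem_Icc, if_true] at h0
    simp only [hlo, hhi, Set.mem_Icc, Fin.isValue, one_ne_zero, if_false] at h1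
    refine (norm_le_abs_add _).trans ?_
    have a0 : |(latt (bas k) (pk k) δ ij - pk k) 0| ≤ 2 * ℓ := by
      simp only [PiLp.sub_apply]; rw [abs_le]
      constructor <;> nlinarith [hc.1.1, hc.1.2, h0.1, h0.2]
    have a1 : |(latt (bas k) (pk k) δ ij - pk k) 1| ≤ 2 * ℓ := by
      simp only [PiLp.sub_apply]; rw [abs_le]
      constructor <;> nlinarith [hc.2.1, hc.2.2, h1.1, h1.2]
    linarith
  refine ⟨I, fun x => pk x.1 + (δ * ((x.2.1 : ℝ) - η)) • bas x.1 0 +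
      (δ * ((x.2.2 : ℝ) - η)) • bas x.1 1,
    fun x => ((1 + 2 * η) * δ) • bas x.1 0, fun x => ((1 + 2 * η) * δ) • bas x.1 1, gF, ?_, ?_, ?_⟩
  · -- shape of the squares
    intro x _
    have hpos : 0 < (1 + 2 * η) * δ := by positivity
    refine ⟨smul_ne_zero hpos.ne' ((bas x.1).orthonormal.ne_zero 0), ?_, ?_⟩
    · rw [norm_smul, norm_smul, (bas x.1).orthonormal.1 0, (bas x.1).orthonormal.1 1]
    · rw [inner_smul_left, inner_smul_right, (bas x.1).orthonormal.2 (by decide)]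
      simp
  · -- coverage
    intro p hp s hs
    have hkK : kidx ℓ p ∈ Kset := hkD p hp
    set k := kidx ℓ p with hk
    have hpc : p ∈ cell ℓ k := mem_cell_kidx ℓ hℓ0 p
    have hdist : dist p (pk k) ≤ 2 * ℓ :=
      dist_le_of_mem_cell ℓ hℓ0 k p (pk k) hpc (hpkc k hkK)
    have hrem : ‖V p - V (pk k) - fderiv ℝ V (pk k) (p - pk k)‖ ≤ ω * ‖p - pk k‖ := by
      have hball : ∀ x ∈ Metric.closedBall (pk k) (2 * ℓ), x ∈ Metric.cthickening r₀ D :=
        fun x hx => Metric.mem_cthickening_of_dist_le x (pk k) r₀ D (hpkD k hkK)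
          (le_trans (Metric.mem_closedBall.1 hx) hℓr)
      refine (convex_closedBall (pk k) (2 * ℓ)).norm_image_sub_le_of_norm_hasFDerivWithin_le'
        (f := V) (f' := fderiv ℝ V) (φ := fderiv ℝ V (pk k))
        (fun x hx => (hVd x (hK₁U (hball x hx))).hasFDerivWithinAt) (fun x hx => ?_)
        (Metric.mem_closedBall_self (by positivity)) (Metric.mem_closedBall.2 hdist)
      have h1 := hDV x (hball x hx) (pk k) (hDK₁ (hpkD k hkK))
        (lt_of_le_of_lt (Metric.mem_closedBall.1 hx) hℓd₁)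
      rw [dist_eq_norm] at h1
      exact h1.le
    have hrn : ‖s • (V p - V (pk k) - fderiv ℝ V (pk k) (p - pk k))‖ ≤ η * δ := by
      rw [norm_smul, Real.norm_eq_abs]
      have h1 : ‖p - pk k‖ ≤ 2 * ℓ := by rw [← dist_eq_norm]; exact hdist
      have h2 : ‖V p - V (pk k) - fderiv ℝ V (pk k) (p - pk k)‖ ≤ ω * (2 * ℓ) :=
        hrem.trans (mul_le_mul_of_nonneg_left h1 hω0.le)
      calc |s| * ‖V p - V (pk k) - fderiv ℝ V (pk k) (p - pk k)‖ ≤ L * (ω * (2 * ℓ)) :=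
            mul_le_mul hs h2 (norm_nonneg _) hL.le
        _ = η * δ := by rw [hωdef, hδdef]; field_simp
    obtain ⟨i, j, ⟨x, hx, y, hy, heq⟩, hclose⟩ := hbas' k hkK δ η hδ0 hη0.le (pk k) (V (pk k)) p
      (s • (V p - V (pk k) - fderiv ℝ V (pk k) (p - pk k))) s hs hrn
    have hpredij : pred k (i, j) := by
      have hc := (mem_cell_iff ℓ k p).1 hpc
      have hcl : ‖p - latt (bas k) (pk k) δ (i, j)‖ ≤ C₀ * δ := hclose
      have a0 := abs_le.1 ((abs_apply_le_norm (p - latt (bas k) (pk k) δ (i, j)) 0).trans hcl)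
      have a1 := abs_le.1 ((abs_apply_le_norm (p - latt (bas k) (pk k) δ (i, j)) 1).trans hcl)
      simp only [PiLp.sub_apply] at a0 a1
      intro m
      fin_cases m
      · simp only [hlo, hhi, Set.mem_Icc, Fin.zero_eta, if_true]
        constructor <;> linarith [hc.1.1, hc.1.2, a0.1, a0.2]
      · simp only [hlo, hhi, Set.mem_Icc, Fin.mk_one, Fin.isValue, one_ne_zero, if_false]
        constructor <;> linarith [hc.2.1, hc.2.2, a1.1, a1.2]
    refine ⟨(k, (i, j)), ?_, x, hx, y, hy, ?_⟩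
    · rw [hI, Finset.mem_filter, Finset.mem_product]
      refine ⟨⟨hkK, ?_⟩, hpredij⟩
      have hb := latt_index_bound (bas k) (pk k) δ hδ0 (i, j) (4 * ℓ)
        (hpred_dist k hkK (i, j) hpredij)
      rw [hZ, Finset.mem_product]
      exact ⟨int_mem_Icc_of_abs_le i _ hb.1, int_mem_Icc_of_abs_le j _ hb.2⟩
    · rw [← heq]
      simp only [smul_add, smul_sub]
      abel
  · -- cost
    have hnorm : ∀ x : (ℤ × ℤ) × (ℤ × ℤ), ‖((1 + 2 * η) * δ) • bas x.1 0‖ = (1 + 2 * η) * δ := by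
      intro x
      rw [norm_smul, (bas x.1).orthonormal.1 0, mul_one, Real.norm_eq_abs,
        abs_of_pos (by positivity)]
    simp only [hnorm]
    have hsplit : ∑ x ∈ I, ((1 + 2 * η) * δ) ^ 2 * J h (gF x) =
        ∑ k ∈ Kset, ∑ ij ∈ Z.filter (pred k), ((1 + 2 * η) * δ) ^ 2 * J h (gF (k, ij)) := by
      rw [hI, Finset.sum_filter, Finset.sum_product]
      refine Finset.sum_congr rfl (fun k _ => ?_)
      rw [Finset.sum_filter]
    rw [hsplit]
    have hper : ∀ k ∈ Kset, ∑ ij ∈ Z.filter (pred k), ((1 + 2 * η) * δ) ^ 2 * J h (gF (k, ij)) ≤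
        G * (ℓ ^ 2 * J h (V (pk k))) + G * ε₁ * ℓ ^ 2 := by
      intro k hk
      have h1 : ∀ ij ∈ Z.filter (pred k), ((1 + 2 * η) * δ) ^ 2 * J h (gF (k, ij)) ≤
          ((1 + 2 * η) * δ) ^ 2 * (J h (V (pk k)) + ε₁) := by
        intro ij hij
        have hp := (Finset.mem_filter.1 hij).2
        have hd := hpred_dist k hk ij hp
        have hJ := J_le_add h (gF (k, ij)) (V (pk k))
        have hg : gF (k, ij) - V (pk k) =
            fderiv ℝ V (pk k) (latt (bas k) (pk k) δ ij - pk k) := by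
          have : latt (bas k) (pk k) δ ij - pk k =
              (δ * (ij.1 : ℝ)) • bas k 0 + (δ * (ij.2 : ℝ)) • bas k 1 := by
            unfold latt; abel
          rw [this, hgF]
          simp
        have hn : ‖gF (k, ij) - V (pk k)‖ ≤ M₁ * (4 * ℓ) := by
          rw [hg]
          exact ((fderiv ℝ V (pk k)).le_opNorm _).trans
            (mul_le_mul (hM₁ _ (hDK₁ (hpkD k hk))) hd (norm_nonneg _) hM₁0)
        have hJ' : J h (gF (k, ij)) ≤ J h (V (pk k)) + ε₁ := by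
          have : (1 + |h|) * ‖gF (k, ij) - V (pk k)‖ ≤ (1 + |h|) * (M₁ * (4 * ℓ)) :=
            mul_le_mul_of_nonneg_left hn (by positivity)
          linarith
        exact mul_le_mul_of_nonneg_left hJ' (by positivity)
      have hpack : ((Z.filter (pred k)).card : ℝ) * δ ^ 2 ≤ ((1 + η) * ℓ) ^ 2 := by
        have hlh : ∀ m, lo k m ≤ hi k m := by
          intro m
          simp only [hlo, hhi]
          nlinarith
        have := packing_count (bas k) (pk k) δ hδ0 (lo k) (hi k) hlh (Z.filter (pred k))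
          (fun ij hij m => (Finset.mem_filter.1 hij).2 m)
        have e0 : hi k 0 - lo k 0 + 4 * δ = (1 + η) * ℓ := by
          simp only [hlo, hhi]; linarith
        have e1 : hi k 1 - lo k 1 + 4 * δ = (1 + η) * ℓ := by
          simp only [hlo, hhi]; linarith
        rw [e0, e1] at this
        nlinarith
      have hJpos : 0 ≤ (1 + 2 * η) ^ 2 * (J h (V (pk k)) + ε₁) := by
        have := J_pos h (V (pk k))
        positivity
      calc ∑ ij ∈ Z.filter (pred k), ((1 + 2 * η) * δ) ^ 2 * J h (gF (k, ij))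
          ≤ ∑ _ij ∈ Z.filter (pred k), ((1 + 2 * η) * δ) ^ 2 * (J h (V (pk k)) + ε₁) :=
            Finset.sum_le_sum h1
        _ = ((Z.filter (pred k)).card : ℝ) * δ ^ 2 * ((1 + 2 * η) ^ 2 * (J h (V (pk k)) + ε₁)) := by
            rw [Finset.sum_const, nsmul_eq_mul]; ring
        _ ≤ ((1 + η) * ℓ) ^ 2 * ((1 + 2 * η) ^ 2 * (J h (V (pk k)) + ε₁)) :=
            mul_le_mul_of_nonneg_right hpack hJpos
        _ = G * (ℓ ^ 2 * J h (V (pk k))) + G * ε₁ * ℓ ^ 2 := by rw [hGdef]; ring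
    -- the set `S`
    set S : Set E2 := Metric.cthickening (2 * ℓ) D with hSdef
    have hSK₁ : S ⊆ Metric.cthickening r₀ D := Metric.cthickening_mono hℓr D
    have hSm : MeasurableSet S := Metric.isClosed_cthickening.measurableSet
    have hSfin : volume S ≠ ⊤ := (measure_mono hSK₁).trans_lt hK₁c.measure_lt_top |>.ne
    have hScompact : IsCompact S := hD.cthickening
    have hDS : D ⊆ S := Metric.self_subset_cthickening D
    have hsub : ∀ k ∈ Kset, cell ℓ k ⊆ S := fun k hk q hq =>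
      Metric.mem_cthickening_of_dist_le q (pk k) (2 * ℓ) D (hpkD k hk)
        (dist_le_of_mem_cell ℓ hℓ0 k q (pk k) hq (hpkc k hk))
    have hfS : IntegrableOn (fun q => J h (V q)) S :=
      (hJVc.mono (hSK₁.trans hK₁U)).integrableOn_compact hScompact
    have hcs := cell_sum_le ℓ hℓ0 Kset pk S hSm hSfin hsub (fun q => J h (V q)) hfS
      (fun q _ => (J_pos h (V q)).le) ε₁ hε₁0.le (fun k hk q hq => by
        have h1 := hJV (pk k) (hDK₁ (hpkD k hk)) q (hSK₁ (hsub k hk hq))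
          (lt_of_le_of_lt (dist_le_of_mem_cell ℓ hℓ0 k (pk k) q (hpkc k hk) hq) hℓd₂)
        rw [Real.dist_eq] at h1
        have := (abs_lt.1 h1).2
        linarith)
    have hcc := cell_card_le ℓ hℓ0 Kset S hSfin hsub
    have hSW : volume.real S ≤ W := measureReal_mono hSK₁ hK₁fin
    have hDm : MeasurableSet D := hD.measurableSet
    have hSD : ∫ q in S, J h (V q) ≤ (∫ q in D, J h (V q)) + ε / 8 := by
      have h1 : ∫ q in S \ D, J h (V q) = (∫ q in S, J h (V q)) - ∫ q in D, J h (V q) :=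
        setIntegral_sdiff hDm hfS hDS
      have hfin : volume (S \ D) ≠ ⊤ := (measure_mono Set.sdiff_subset).trans_lt (lt_top_iff_ne_top.2 hSfin) |>.ne
      have h2 : ∫ q in S \ D, J h (V q) ≤ ∫ _q in S \ D, (1 : ℝ) :=
        setIntegral_mono_on (hfS.mono_set Set.sdiff_subset) (integrableOn_const hfin)
          (hSm.diff hDm) (fun q _ => J_le_one h (V q))
      rw [setIntegral_const, smul_eq_mul, mul_one] at h2
      have h3 := hthick (2 * ℓ) (by positivity) hℓd₃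
      linarith
    have hDW : ∫ q in D, J h (V q) ≤ W := by
      have hfD : IntegrableOn (fun q => J h (V q)) D := hfS.mono_set hDS
      have hfinD : volume D ≠ ⊤ := hD.measure_lt_top.ne
      have h2 : ∫ q in D, J h (V q) ≤ ∫ _q in D, (1 : ℝ) :=
        setIntegral_mono_on hfD (integrableOn_const hfinD) hDm (fun q _ => J_le_one h (V q))
      rw [setIntegral_const, smul_eq_mul, mul_one] at h2
      exact h2.trans (measureReal_mono hDK₁ hK₁fin)
    have hD0 : 0 ≤ ∫ q in D, J h (V q) :=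
      setIntegral_nonneg hDm (fun q _ => (J_pos h (V q)).le)
    calc ∑ k ∈ Kset, ∑ ij ∈ Z.filter (pred k), ((1 + 2 * η) * δ) ^ 2 * J h (gF (k, ij))
        ≤ ∑ k ∈ Kset, (G * (ℓ ^ 2 * J h (V (pk k))) + G * ε₁ * ℓ ^ 2) := Finset.sum_le_sum hper
      _ = G * ∑ k ∈ Kset, ℓ ^ 2 * J h (V (pk k)) + G * ε₁ * ∑ _k ∈ Kset, ℓ ^ 2 := by
          rw [Finset.sum_add_distrib, Finset.mul_sum, Finset.mul_sum]
      _ ≤ G * ((∫ q in S, J h (V q)) + ε₁ * volume.real S) + G * ε₁ * volume.real S := by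
          have hG0 : 0 ≤ G := by linarith
          have := mul_le_mul_of_nonneg_left hcs hG0
          have := mul_le_mul_of_nonneg_left hcc (mul_nonneg hG0 hε₁0.le)
          linarith
      _ ≤ (∫ p in D, J h (V p)) + ε := by
          have hvS : 0 ≤ volume.real S := measureReal_nonneg
          nlinarith [mul_nonneg hε₁0.le hvS, mul_le_mul_of_nonneg_left hSW hε₁0.le]

end Crest.Agent.Helper6.S0326
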