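import Mathlib
import Crest.Agent.Helper7.S0423Defs

/-!
# S0423, package B2: one exponential step on survival kernels

For `IsSurv K` and any real `a`, the kernel `stepS a K u = ∫_{x>0} K (u - a x) e^{-x} dx` is
continuous, antitone, takes values in `(0, 1]`, `stepS a K - ind0` is integrable, and the mean
`smean` shifts by `a`.  Also the two strict bounds `stepS a K t < 1`.
The log-concavity field is package B1 (helper9); `isSurv_step_of_logconc` assembles `IsSurv`.
-/

set_option autoImplicit false

namespace Crest.Agent.Helper6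

open MeasureTheory Set Crest.Agent.Helper7

variable {K : ℝ → ℝ}

lemma expNeg_integrableOn : IntegrableOn (fun x : ℝ => Real.exp (-x)) (Ioi 0) :=
  integrableOn_exp_neg_Ioi 0

lemma step_integrand_continuous (hK : IsSurv K) (a u : ℝ) :
    Continuous (fun x : ℝ => K (u - a * x) * Real.exp (-x)) := by
  have := hK.cont
  fun_prop

lemma step_integrand_le (hK : IsSurv K) (a u x : ℝ) :
    K (u - a * x) * Real.exp (-x) ≤ Real.exp (-x) := by
  have := hK.le_one (u - a * x)
  have h2 := (Real.exp_pos (-x)).le
  nlinarith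

lemma step_integrand_nonneg (hK : IsSurv K) (a u x : ℝ) :
    0 ≤ K (u - a * x) * Real.exp (-x) :=
  mul_nonneg (hK.pos _).le (Real.exp_pos _).le

lemma step_integrand_integrable (hK : IsSurv K) (a u : ℝ) :
    IntegrableOn (fun x : ℝ => K (u - a * x) * Real.exp (-x)) (Ioi 0) := by
  refine Integrable.mono' expNeg_integrableOn
    (step_integrand_continuous hK a u).aestronglyMeasurable ?_
  refine Filter.Eventually.of_forall (fun x => ?_)
  rw [Real.norm_eq_abs, abs_of_nonneg (step_integrand_nonneg hK a u x)]
  exact step_integrand_le hK a u x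

theorem step_le_one (hK : IsSurv K) (a u : ℝ) : stepS a K u ≤ 1 := by
  unfold stepS
  calc ∫ x in Ioi (0:ℝ), K (u - a * x) * Real.exp (-x)
      ≤ ∫ x in Ioi (0:ℝ), Real.exp (-x) :=
        setIntegral_mono_on (step_integrand_integrable hK a u) expNeg_integrableOn
          measurableSet_Ioi (fun x _ => step_integrand_le hK a u x)
    _ = 1 := integral_exp_neg_Ioi_zero

theorem step_antitone (hK : IsSurv K) (a : ℝ) : Antitone (stepS a K) := by
  intro u v huv
  unfold stepS
  refine setIntegral_mono_on (step_integrand_integrable hK a v)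
    (step_integrand_integrable hK a u) measurableSet_Ioi (fun x _ => ?_)
  exact mul_le_mul_of_nonneg_right (hK.anti (by linarith)) (Real.exp_pos _).le

theorem step_continuous (hK : IsSurv K) (a : ℝ) : Continuous (stepS a K) := by
  unfold stepS
  refine continuous_of_dominated (bound := fun x => Real.exp (-x))
    (fun u => (step_integrand_continuous hK a u).aestronglyMeasurable) (fun u => ?_)
    expNeg_integrableOn ?_
  · refine Filter.Eventually.of_forall (fun x => ?_)
    rw [Real.norm_eq_abs, abs_of_nonneg (step_integrand_nonneg hK a u x)]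
    exact step_integrand_le hK a u x
  · refine Filter.Eventually.of_forall (fun x => ?_)
    have := hK.cont
    fun_prop

theorem step_pos (hK : IsSurv K) (a u : ℝ) : 0 < stepS a K u := by
  unfold stepS
  rw [integral_pos_iff_support_of_nonneg (fun x => step_integrand_nonneg hK a u x)
    (step_integrand_integrable hK a u)]
  have hsupp : Function.support (fun x : ℝ => K (u - a * x) * Real.exp (-x)) = univ := by
    ext x
    simp only [Function.mem_support, mem_univ, iff_true]
    exact (mul_pos (hK.pos _) (Real.exp_pos _)).ne'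
  rw [hsupp, Measure.restrict_apply MeasurableSet.univ, univ_inter]
  simp

/-- `1 - stepS a K u` as an integral. -/
lemma one_sub_step (hK : IsSurv K) (a u : ℝ) :
    1 - stepS a K u = ∫ x in Ioi (0:ℝ), (1 - K (u - a * x)) * Real.exp (-x) := by
  unfold stepS
  have h1 : ∫ x in Ioi (0:ℝ), (1 - K (u - a * x)) * Real.exp (-x)
      = (∫ x in Ioi (0:ℝ), Real.exp (-x)) - ∫ x in Ioi (0:ℝ), K (u - a * x) * Real.exp (-x) := by
    rw [← integral_sub expNeg_integrableOn (step_integrand_integrable hK a u)]
    congr 1
    funext x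
    ring
  rw [h1, integral_exp_neg_Ioi_zero]

lemma one_sub_integrand_nonneg (hK : IsSurv K) (a u x : ℝ) :
    0 ≤ (1 - K (u - a * x)) * Real.exp (-x) :=
  mul_nonneg (sub_nonneg.mpr (hK.le_one _)) (Real.exp_pos _).le

lemma one_sub_integrand_integrable (hK : IsSurv K) (a u : ℝ) :
    IntegrableOn (fun x : ℝ => (1 - K (u - a * x)) * Real.exp (-x)) (Ioi 0) := by
  have := expNeg_integrableOn.sub (step_integrand_integrable hK a u)
  refine this.congr (Filter.Eventually.of_forall fun x => ?_)
  simp only [Pi.sub_apply]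
  ring

theorem step_lt_one (hK : IsSurv K) (a : ℝ) (h : ∀ t, K t < 1) (t : ℝ) : stepS a K t < 1 := by
  rw [← sub_pos, one_sub_step hK a t,
    integral_pos_iff_support_of_nonneg (fun x => one_sub_integrand_nonneg hK a t x)
    (one_sub_integrand_integrable hK a t)]
  have hsupp : Function.support (fun x : ℝ => (1 - K (t - a * x)) * Real.exp (-x)) = univ := by
    ext x
    simp only [Function.mem_support, mem_univ, iff_true]
    exact (mul_pos (sub_pos.mpr (h _)) (Real.exp_pos _)).ne'
  rw [hsupp, Measure.restrict_apply MeasurableSet.univ, univ_inter]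
  simp

lemma measurable_ind0 : Measurable ind0 := by
  unfold ind0
  exact Measurable.ite measurableSet_Iio measurable_const measurable_const

lemma ind0_shift_eq_of_nonneg {c : ℝ} (hc : 0 ≤ c) (u : ℝ) :
    ind0 (u - c) - ind0 u = (Ico 0 c).indicator (fun _ => (1:ℝ)) u := by
  unfold ind0
  by_cases h1 : u < 0
  · have h2 : u - c < 0 := by linarith
    have h3 : u ∉ Ico 0 c := fun h => absurd h.1 (not_le.mpr h1)
    rw [if_pos h1, if_pos h2, indicator_of_notMem h3]; ring
  · by_cases h2 : u < c
    · have h3 : u - c < 0 := by linarith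
      have h4 : u ∈ Ico 0 c := ⟨not_lt.mp h1, h2⟩
      rw [if_neg h1, if_pos h3, indicator_of_mem h4]; ring
    · have h3 : ¬ (u - c < 0) := by linarith
      have h4 : u ∉ Ico 0 c := fun h => h2 h.2
      rw [if_neg h1, if_neg h3, indicator_of_notMem h4]; ring

lemma ind0_shift_eq_of_nonpos {c : ℝ} (hc : c ≤ 0) (u : ℝ) :
    ind0 (u - c) - ind0 u = - (Ico c 0).indicator (fun _ => (1:ℝ)) u := by
  unfold ind0
  by_cases h1 : u < c
  · have h2 : u - c < 0 := by linarith
    have h2' : u < 0 := by linarith
    have h3 : u ∉ Ico c 0 := fun h => absurd h.1 (not_le.mpr h1)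
    rw [if_pos h2', if_pos h2, indicator_of_notMem h3]; ring
  · by_cases h2 : u < 0
    · have h3 : ¬ (u - c < 0) := by linarith
      have h4 : u ∈ Ico c 0 := ⟨not_lt.mp h1, h2⟩
      rw [if_pos h2, if_neg h3, indicator_of_mem h4]; ring
    · have h3 : ¬ (u - c < 0) := by linarith
      have h4 : u ∉ Ico c 0 := fun h => h2 h.2
      rw [if_neg h2, if_neg h3, indicator_of_notMem h4]; ring

lemma integrable_indicator_Ico (p q : ℝ) :
    Integrable ((Ico p q).indicator (fun _ => (1:ℝ))) := by
  rw [integrable_indicator_iff measurableSet_Ico]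
  exact integrableOn_const (by simp)

lemma integral_indicator_Ico {p q : ℝ} (h : p ≤ q) :
    ∫ u, (Ico p q).indicator (fun _ => (1:ℝ)) u = q - p := by
  rw [integral_indicator_const _ measurableSet_Ico]
  simp [Measure.real, Real.volume_Ico, h]

lemma ind0_shift_integrable (c : ℝ) : Integrable (fun u => ind0 (u - c) - ind0 u) := by
  rcases le_total 0 c with h | h
  · exact (integrable_indicator_Ico 0 c).congr
      (Filter.Eventually.of_forall fun u => (ind0_shift_eq_of_nonneg h u).symm)
  · exact (integrable_indicator_Ico c 0).neg.congr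
      (Filter.Eventually.of_forall fun u => by
        simp only [Pi.neg_apply]; exact (ind0_shift_eq_of_nonpos h u).symm)

lemma ind0_shift_integral (c : ℝ) : ∫ u, (ind0 (u - c) - ind0 u) = c := by
  rcases le_total 0 c with h | h
  · simp_rw [ind0_shift_eq_of_nonneg h]
    rw [integral_indicator_Ico h]; ring
  · simp_rw [ind0_shift_eq_of_nonpos h]
    rw [integral_neg, integral_indicator_Ico h]; ring

lemma ind0_shift_norm_integral (c : ℝ) : ∫ u, ‖ind0 (u - c) - ind0 u‖ = |c| := by
  rcases le_total 0 c with h | h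
  · simp_rw [ind0_shift_eq_of_nonneg h]
    have : ∀ u : ℝ, ‖(Ico 0 c).indicator (fun _ => (1:ℝ)) u‖
        = (Ico 0 c).indicator (fun _ => (1:ℝ)) u := fun u => by
      rw [Real.norm_eq_abs, abs_of_nonneg]
      exact indicator_nonneg (fun _ _ => zero_le_one) u
    simp_rw [this]
    rw [integral_indicator_Ico h, abs_of_nonneg h]; ring
  · simp_rw [ind0_shift_eq_of_nonpos h]
    have : ∀ u : ℝ, ‖-(Ico c 0).indicator (fun _ => (1:ℝ)) u‖
        = (Ico c 0).indicator (fun _ => (1:ℝ)) u := fun u => by
      rw [norm_neg, Real.norm_eq_abs, abs_of_nonneg]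
      exact indicator_nonneg (fun _ _ => zero_le_one) u
    simp_rw [this]
    rw [integral_indicator_Ico h, abs_of_nonpos h]; ring

variable {K : ℝ → ℝ}

lemma G_decomp (K : ℝ → ℝ) (a x u : ℝ) : (K (u - a * x) - ind0 u) * Real.exp (-x)
    = Real.exp (-x) * ((K (u - a * x) - ind0 (u - a * x)) + (ind0 (u - a * x) - ind0 u)) := by
  ring

lemma G_slice_integrable (hK : IsSurv K) (a x : ℝ) :
    Integrable (fun u => (K (u - a * x) - ind0 u) * Real.exp (-x)) := by
  have h1 : Integrable (fun u => K (u - a * x) - ind0 (u - a * x)) :=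
    hK.integrable.comp_sub_right (a * x)
  have h2 := ind0_shift_integrable (a * x)
  exact ((h1.add h2).const_mul (Real.exp (-x))).congr
    (Filter.Eventually.of_forall fun u => (G_decomp K a x u).symm)

lemma G_slice_integral (hK : IsSurv K) (a x : ℝ) :
    ∫ u, (K (u - a * x) - ind0 u) * Real.exp (-x) = Real.exp (-x) * (smean K + a * x) := by
  have h1 : Integrable (fun u => K (u - a * x) - ind0 (u - a * x)) :=
    hK.integrable.comp_sub_right (a * x)
  have h2 := ind0_shift_integrable (a * x)
  simp_rw [G_decomp K a x]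
  rw [integral_const_mul, integral_add h1 h2, ind0_shift_integral]
  congr 2
  exact integral_sub_right_eq_self (fun t => K t - ind0 t) (a * x)

lemma G_slice_norm_le (hK : IsSurv K) (a x : ℝ) :
    ∫ u, ‖(K (u - a * x) - ind0 u) * Real.exp (-x)‖
      ≤ Real.exp (-x) * ((∫ u, ‖K u - ind0 u‖) + |a * x|) := by
  have h1 : Integrable (fun u => K (u - a * x) - ind0 (u - a * x)) :=
    hK.integrable.comp_sub_right (a * x)
  have h2 := ind0_shift_integrable (a * x)
  have hnorm : ∫ u, ‖K (u - a * x) - ind0 (u - a * x)‖ = ∫ u, ‖K u - ind0 u‖ :=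
    integral_sub_right_eq_self (fun t => ‖K t - ind0 t‖) (a * x)
  calc ∫ u, ‖(K (u - a * x) - ind0 u) * Real.exp (-x)‖
      ≤ ∫ u, Real.exp (-x) * (‖K (u - a * x) - ind0 (u - a * x)‖
          + ‖ind0 (u - a * x) - ind0 u‖) := by
        refine integral_mono (G_slice_integrable hK a x).norm
          ((h1.norm.add h2.norm).const_mul _) (fun u => ?_)
        show ‖(K (u - a * x) - ind0 u) * Real.exp (-x)‖ ≤ _
        rw [G_decomp K a x u, norm_mul, Real.norm_eq_abs, abs_of_pos (Real.exp_pos _)]
        exact mul_le_mul_of_nonneg_left (norm_add_le _ _) (Real.exp_pos _).le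
    _ = Real.exp (-x) * ((∫ u, ‖K u - ind0 u‖) + |a * x|) := by
        rw [integral_const_mul, integral_add h1.norm h2.norm, hnorm, ind0_shift_norm_integral]

lemma G_measurable (hK : IsSurv K) (a : ℝ) :
    Measurable (fun p : ℝ × ℝ => (K (p.2 - a * p.1) - ind0 p.2) * Real.exp (-p.1)) := by
  have hKm : Measurable K := hK.cont.measurable
  exact ((hKm.comp (measurable_snd.sub (measurable_fst.const_mul a))).sub
    (measurable_ind0.comp measurable_snd)).mul (Real.measurable_exp.comp measurable_fst.neg)

lemma integrableOn_mul_expNeg : IntegrableOn (fun x : ℝ => x * Real.exp (-x)) (Ioi 0) := by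
  have := Real.GammaIntegral_convergent (s := 2) (by norm_num)
  refine this.congr_fun (fun x hx => ?_) measurableSet_Ioi
  have hx' : (0:ℝ) < x := hx
  show Real.exp (-x) * x ^ ((2:ℝ) - 1) = x * Real.exp (-x)
  norm_num
  ring

lemma integral_mul_expNeg : ∫ x in Ioi (0:ℝ), x * Real.exp (-x) = 1 := by
  have := Real.Gamma_eq_integral (s := 2) (by norm_num)
  have h2 : Real.Gamma 2 = 1 := Real.Gamma_two
  rw [h2] at this
  rw [this]
  refine setIntegral_congr_fun measurableSet_Ioi (fun x hx => ?_)
  show x * Real.exp (-x) = Real.exp (-x) * x ^ ((2:ℝ) - 1)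
  norm_num
  ring

lemma G_integrable (hK : IsSurv K) (a : ℝ) :
    Integrable (fun p : ℝ × ℝ => (K (p.2 - a * p.1) - ind0 p.2) * Real.exp (-p.1))
      ((volume.restrict (Ioi (0:ℝ))).prod volume) := by
  rw [integrable_prod_iff (G_measurable hK a).aestronglyMeasurable]
  refine ⟨Filter.Eventually.of_forall fun x => G_slice_integrable hK a x, ?_⟩
  set C : ℝ := ∫ u, ‖K u - ind0 u‖ with hC
  have hbound : IntegrableOn (fun x : ℝ => C * Real.exp (-x) + |a| * (x * Real.exp (-x)))
      (Ioi 0) :=
    (expNeg_integrableOn.const_mul C).add (integrableOn_mul_expNeg.const_mul |a|)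
  refine Integrable.mono' hbound
    ((G_measurable hK a).aestronglyMeasurable.norm.integral_prod_right') ?_
  refine (ae_restrict_iff' measurableSet_Ioi).mpr (Filter.Eventually.of_forall fun x hx => ?_)
  have hx' : (0:ℝ) < x := hx
  rw [Real.norm_eq_abs, abs_of_nonneg (integral_nonneg fun u => norm_nonneg _)]
  refine (G_slice_norm_le hK a x).trans (le_of_eq ?_)
  rw [abs_mul, abs_of_pos hx']
  ring

lemma step_sub_ind0_eq (hK : IsSurv K) (a u : ℝ) :
    stepS a K u - ind0 u = ∫ x in Ioi (0:ℝ), (K (u - a * x) - ind0 u) * Real.exp (-x) := by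
  unfold stepS
  have h1 : ∫ x in Ioi (0:ℝ), (K (u - a * x) - ind0 u) * Real.exp (-x)
      = (∫ x in Ioi (0:ℝ), K (u - a * x) * Real.exp (-x))
        - ∫ x in Ioi (0:ℝ), ind0 u * Real.exp (-x) := by
    rw [← integral_sub (step_integrand_integrable hK a u) (expNeg_integrableOn.const_mul _)]
    congr 1
    funext x
    ring
  rw [h1, integral_const_mul, integral_exp_neg_Ioi_zero, mul_one]

theorem step_integrable (hK : IsSurv K) (a : ℝ) :
    Integrable (fun t => stepS a K t - ind0 t) := by
  have := (G_integrable hK a).integral_prod_right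
  refine this.congr (Filter.Eventually.of_forall fun u => ?_)
  exact (step_sub_ind0_eq hK a u).symm

theorem smean_step (hK : IsSurv K) (a : ℝ) : smean (stepS a K) = smean K + a := by
  unfold smean
  simp_rw [step_sub_ind0_eq hK a]
  have hswap := integral_integral_swap
    (f := fun (x u : ℝ) => (K (u - a * x) - ind0 u) * Real.exp (-x))
    (μ := volume.restrict (Ioi (0:ℝ))) (ν := volume) (G_integrable hK a)
  rw [← hswap]
  simp_rw [G_slice_integral hK a]
  have e : ∀ x : ℝ, Real.exp (-x) * (smean K + a * x)
      = smean K * Real.exp (-x) + a * (x * Real.exp (-x)) := fun x => by ring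
  simp_rw [e]
  rw [integral_add (expNeg_integrableOn.const_mul _) (integrableOn_mul_expNeg.const_mul _),
    integral_const_mul, integral_const_mul, integral_exp_neg_Ioi_zero, integral_mul_expNeg]
  unfold smean
  ring

/-- A survival kernel is somewhere `< 1` (otherwise `K - ind0` is not integrable). -/
lemma exists_lt_one (hK : IsSurv K) : ∃ t₁, K t₁ < 1 := by
  by_contra hcon
  push Not at hcon
  have hK1 : ∀ t, K t = 1 := fun t => le_antisymm (hK.le_one t) (hcon t)
  have h1 : IntegrableOn (fun t => K t - ind0 t) (Ici 0) := hK.integrable.integrableOn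
  have h2 : IntegrableOn (fun _ : ℝ => (1:ℝ)) (Ici 0) := by
    refine h1.congr_fun (fun t ht => ?_) measurableSet_Ici
    have ht' : ¬ t < 0 := not_lt.mpr ht
    show K t - ind0 t = 1
    unfold ind0
    rw [hK1 t, if_neg ht']; ring
  rw [integrableOn_const_iff] at h2
  simp at h2

theorem step_lt_one_of_neg (hK : IsSurv K) {a : ℝ} (ha : a < 0) (t : ℝ) :
    stepS a K t < 1 := by
  obtain ⟨t₁, ht₁⟩ := exists_lt_one hK
  rw [← sub_pos, one_sub_step hK a t,
    integral_pos_iff_support_of_nonneg (fun x => one_sub_integrand_nonneg hK a t x)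
    (one_sub_integrand_integrable hK a t)]
  set x₁ : ℝ := max 0 ((t₁ - t) / (-a)) with hx₁
  have hsub : Ioi x₁ ⊆ Function.support (fun x : ℝ => (1 - K (t - a * x)) * Real.exp (-x)) := by
    intro x hx
    have hx' : x₁ < x := hx
    simp only [Function.mem_support]
    have h1 : (t₁ - t) / (-a) < x := lt_of_le_of_lt (le_max_right _ _) hx'
    have h2 : t₁ - t < x * (-a) := by
      rwa [div_lt_iff₀ (by linarith)] at h1
    have h3 : K (t - a * x) ≤ K t₁ := hK.anti (by nlinarith)
    exact (mul_pos (by linarith) (Real.exp_pos _)).ne'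
  have hpos : 0 < (volume.restrict (Ioi (0:ℝ))) (Ioi x₁) := by
    rw [Measure.restrict_apply measurableSet_Ioi]
    have : Ioi x₁ ∩ Ioi 0 = Ioi x₁ := by
      ext y; simp only [mem_inter_iff, mem_Ioi, and_iff_left_iff_imp]
      intro hy; exact lt_of_le_of_lt (le_max_left _ _) hy
    rw [this]
    simp
  exact lt_of_lt_of_le hpos (measure_mono hsub)

/-- Assembly of `IsSurv (stepS a K)` from the log-concavity field (package B1). -/
theorem isSurv_step_of_logconc (hK : IsSurv K) (a : ℝ)
    (hlc : ConcaveOn ℝ Set.univ (fun t => Real.log (stepS a K t))) : IsSurv (stepS a K) where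
  cont := step_continuous hK a
  pos := step_pos hK a
  le_one := step_le_one hK a
  anti := step_antitone hK a
  logconc := hlc
  integrable := step_integrable hK a

end Crest.Agent.Helper6
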